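import Vale.Agent.P032.S5.H306.ReproL
import Vale.Agent.P032.S5.H25.MeetPsi
import Vale.Agent.P032.S5.H913.Hull
import Vale.Agent.P032.S5.H913.DEnd

/-!
# P032: no D-star pair in a disc without D-points

`Irr.noStar_disc` : if every point with at least four colours of a disc is harmless, then no two
harmless points of the smaller disc (radius less eight) at distance one have the same unbroken pair.
-/

open Set Filter Topology Metric

noncomputable section

namespace Vale.Agent.P032.Six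

variable {U : Fin 6 → Set ℂ} {T : ℂ → Set (Fin 6)}

/-- **The end**, with levels. -/
theorem dstar_endL {α : Type*} (S : ℕ → Set α) (O : α → Set ℝ)
    (hO : ∀ k, ∀ z ∈ S k, IsOpen (O z))
    (h1 : ∀ k, ∀ z ∈ S k, -(Real.pi / 2) ∉ closure (O z))
    (h2 : ∀ k, ∀ z ∈ S k, Real.pi / 2 ∉ closure (O z))
    (hull : ∀ k, ∀ z ∈ S k, ∀ b, -(Real.pi / 2) < b → b < Real.pi / 2 →
      (b ∈ closure (O z) ∧ b ∉ O z ∨ b + Real.pi ∈ closure (O z) ∧ b + Real.pi ∉ O z) →
      (∀ t, -(Real.pi / 2) < t → t < Real.pi / 2 → (t ∈ O z ∨ t + Real.pi ∈ O z) → b < t) ∨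
      (∀ t, -(Real.pi / 2) < t → t < Real.pi / 2 → (t ∈ O z ∨ t + Real.pi ∈ O z) → t < b))
    (hm1 : ∀ k, ∀ z ∈ S k, -(Real.pi / 6) ∈ closure (O z) ∨ Real.pi / 6 ∈ closure (O z))
    (hm2 : ∀ k, ∀ z ∈ S k, -(Real.pi / 6) + Real.pi ∈ closure (O z) ∨
      Real.pi / 6 + Real.pi ∈ closure (O z))
    (next : ∀ k, ∀ z ∈ S (k + 1), ∀ b, -(Real.pi / 2) < b → b < Real.pi / 2 →
      b ∈ closure (O z) → b ∉ O z →
      ∃ v ∈ S k, Disjoint (O v) (O z) ∧ b + Real.pi ∈ closure (O v) ∧ b + Real.pi ∉ O v) :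
    S 4 = ∅ := by
  have hpi := Real.pi_pos
  by_contra hne
  obtain ⟨z, hz⟩ := nonempty_iff_ne_empty.2 hne
  have hint : ∀ k, ∀ z ∈ S k, ∃ m M, DInt (O z) m M := fun k z hz =>
    dint_of (hO k z hz) (h1 k z hz) (h2 k z hz) (hull k z hz) (hm1 k z hz) (hm2 k z hz)
  have step : ∀ k, ∀ z ∈ S (k + 1), ∀ m M, DInt (O z) m M → ∃ v ∈ S k, ∃ M', DInt (O v) M M' := by
    intro k z hz m M hI
    have hlo := hI.lo
    have hlt := hI.lt
    have hhi := hI.hi
    have hMcl : M ∈ closure (O z) := by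
      rw [mem_closure_iff_nhds]
      intro V hV
      obtain ⟨δ, hδ, hball⟩ := Metric.mem_nhds_iff.1 hV
      refine ⟨M - min (δ / 2) ((M - m) / 2), hball ?_, ?_⟩
      · have h3 : 0 < min (δ / 2) ((M - m) / 2) := lt_min (by linarith) (by linarith)
        rw [Metric.mem_ball, Real.dist_eq, abs_of_neg (by linarith)]
        have := min_le_left (δ / 2) ((M - m) / 2)
        linarith
      · have h3 : 0 < min (δ / 2) ((M - m) / 2) := lt_min (by linarith) (by linarith)
        have h4 := min_le_right (δ / 2) ((M - m) / 2)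
        exact (hI.right _ (by linarith) (by linarith)).2 ⟨by linarith, by linarith⟩
    have hMn : M ∉ O z := by
      intro h3
      have := (hI.right M (by linarith) hhi).1 h3
      linarith
    obtain ⟨v, hv, hdis, hcl, hn⟩ := next k z hz M (by linarith) hhi hMcl hMn
    obtain ⟨m', M', hI'⟩ := hint k v hv
    have hlo' := hI'.lo
    have hlt' := hI'.lt
    have hhi' := hI'.hi
    have hn2 : ¬ (m' < M ∧ M < M') := fun h3 => hn ((hI'.left M (by linarith) hhi).2 h3)
    have hcl2 : m' ≤ M ∧ M ≤ M' := by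
      by_contra hcon
      rw [mem_closure_iff_nhds] at hcl
      have hor : M < m' ∨ M' < M := by
        by_contra h3
        push Not at h3
        exact hcon ⟨h3.1, h3.2⟩
      obtain ⟨a, b, ha, hb, hab⟩ : ∃ a b, a < M ∧ M < b ∧
          ∀ t, a < t → t < b → -(Real.pi / 2) < t ∧ t < Real.pi / 2 ∧ ¬ (m' < t ∧ t < M') := by
        rcases hor with h3 | h3
        · refine ⟨-(Real.pi / 2), min m' (Real.pi / 2), by linarith, lt_min h3 hhi,
            fun t h4 h5 => ⟨h4, lt_of_lt_of_le h5 (min_le_right _ _), fun h6 => ?_⟩⟩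
          have := lt_of_lt_of_le h5 (min_le_left _ _)
          linarith [h6.1]
        · refine ⟨max M' (-(Real.pi / 2)), Real.pi / 2, max_lt h3 (by linarith), hhi,
            fun t h4 h5 => ⟨lt_of_le_of_lt (le_max_right _ _) h4, h5, fun h6 => ?_⟩⟩
          have := lt_of_le_of_lt (le_max_left M' (-(Real.pi / 2))) h4
          linarith [h6.2]
      obtain ⟨x, hx, hxX⟩ := hcl (Ioo (a + Real.pi) (b + Real.pi))
        (Ioo_mem_nhds (by linarith) (by linarith))
      obtain ⟨h4, h5, h6⟩ := hab (x - Real.pi) (by linarith [hx.1]) (by linarith [hx.2])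
      exact h6 ((hI'.left _ h4 h5).1 (by rw [sub_add_cancel]; exact hxX))
    have hM' : M ≠ M' := by
      intro h3
      obtain ⟨t, ht1, ht2⟩ := exists_between (max_lt hlt (by rw [h3]; exact hlt') : max m m' < M)
      have h4 := lt_of_le_of_lt (le_max_left m m') ht1
      have h5 := lt_of_le_of_lt (le_max_right m m') ht1
      exact disjoint_left.1 hdis ((hI'.right t (by linarith) (by linarith)).2 ⟨h5, by linarith⟩)
        ((hI.right t (by linarith) (by linarith)).2 ⟨h4, ht2⟩)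
    have hm' : m' = M := by
      by_contra h3
      exact hn2 ⟨lt_of_le_of_ne hcl2.1 h3, lt_of_le_of_ne hcl2.2 hM'⟩
    subst hm'
    exact ⟨v, hv, M', hI'⟩
  obtain ⟨m0, m1, hI0⟩ := hint 4 z hz
  obtain ⟨z1, hz1, m2, hI1⟩ := step 3 z hz _ _ hI0
  obtain ⟨z2, hz2, m3, hI2⟩ := step 2 z1 hz1 _ _ hI1
  obtain ⟨z3, hz3, m4, hI3⟩ := step 1 z2 hz2 _ _ hI2
  obtain ⟨z4, hz4, m5, hI4⟩ := step 0 z3 hz3 _ _ hI3
  have a0 := hI0.lt
  have a1 := hI1.lt
  have a2 := hI2.lt
  have a3 := hI3.lt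
  have a4 := hI4.lt
  rcases hI0.meet with b0 | b0 <;> rcases hI1.meet with b1 | b1 <;>
    rcases hI2.meet with b2 | b2 <;> rcases hI3.meet with b3 | b3 <;>
    rcases hI4.meet with b4 | b4 <;> linarith [b0.1, b0.2, b1.1, b1.2, b2.1, b2.2, b3.1, b3.2,
      b4.1, b4.2]

theorem closure_DO306 {z n : ℂ} (hn : ‖n‖ = 1) {b : ℝ} (hb : b ∈ closure (DO T n z)) :
    Complex.I * n * cis b ∈ closure (Dir T z) := by
  have hc : Continuous fun t : ℝ => Complex.I * n * cis t := continuous_const.mul continuous_cis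
  exact map_mem_closure (f := fun t : ℝ => Complex.I * n * cis t) hc hb
    fun t ht => ⟨norm_In hn t, ht⟩

/-- harmless points near `z'` -/
def Lc (T : ℂ → Set (Fin 6)) (z : ℂ) : Prop :=
  ∀ x, dist x z < 4 → 4 ≤ (T x).ncard → ∃ A, Harm T x A

theorem Lc.le {z x : ℂ} (H : Lc T z) (hx : dist x z < 4) : (T x).ncard ≤ 4 := by
  by_contra hcon
  obtain ⟨A, hA⟩ := H x hx (by omega)
  have := hA.card
  omega

namespace DP

variable {z y : ℂ} {A B : Set (Fin 6)}

/-- everything at an end, local form -/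
theorem end_all306 (P : DP T z y A B) (h : Irr U T) (hmin : MinF U T) (H : Lc T z) {ξ : ℂ}
    (hξ : ‖ξ‖ = 1) (hcl : ξ ∈ closure (Dir T z)) (hn : ¬ T (z + ξ) ⊆ T z) :
    (∃ s ∈ T z \ A, s ∈ T (z + ξ)) ∧ (∃ A' B', DP T (z + ξ) (y + ξ) A' B') ∧
      Disjoint (Dir T (z + ξ)) (Dir T z) ∧ (¬ T z ⊆ T (z + ξ)) ∧
      ∃ᶠ x in 𝓝[sphere (z + ξ) 1] z, T x ⊆ T (z + ξ) := by
  have hne : ξ ≠ z - y := fun h1 => (P.notAxis306 h).1 (h1 ▸ hcl)
  have hne' : ξ ≠ y - z := fun h1 => (P.notAxis306 h).2 (h1 ▸ hcl)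
  have hcl' : ξ ∈ closure (Dir T y) := by rw [← P.dirEq306 h]; exact hcl
  have hnw : ¬ T (y + ξ) ⊆ T y := fun h1 => by
    have : ξ ∈ Dir T y := ⟨hξ, h1⟩
    rw [← P.dirEq306 h] at this
    exact hn this.2
  have dv : dist (z + ξ) z < 3 := by
    rw [dist_eq_norm, add_sub_cancel_left, hξ]; norm_num
  have dw : dist (y + ξ) z < 3 := by
    have h1 : dist (y + ξ) y = 1 := by rw [dist_eq_norm, add_sub_cancel_left, hξ]
    have h2 := dist_triangle (y + ξ) y z
    have h3 : dist y z = 1 := by rw [dist_comm]; exact P.d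
    linarith
  have v4 := H.le (show dist (z + ξ) z < 4 by linarith)
  have w4 := H.le (show dist (y + ξ) z < 4 by linarith)
  have hv : (T (z + ξ)).ncard = 4 → ∃ A', Harm T (z + ξ) A' := fun h1 =>
    H _ (by linarith) (by omega)
  have hw : (T (y + ξ)).ncard = 4 → ∃ A', Harm T (y + ξ) A' := fun h1 =>
    H _ (by linarith) (by omega)
  obtain ⟨s, hs, x, hx, hTv, A', hA', hsA', hA's⟩ := P.ends306 h hξ hcl hn v4 w4 hv hw
  obtain ⟨s', hs', t, ht, hTw, B', hB', hsB', hB's⟩ :=
    P.symm.ends306 h hξ hcl' hnw w4 v4 hw hv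
  have hev : ∀ p : ℂ, dist p z < 3 → ∀ᶠ x in 𝓝 p, (T x).ncard = 4 → ∃ A'', Harm T x A'' := by
    intro p hp
    filter_upwards [ball_mem_nhds p one_pos] with x hx h4
    refine H x ?_ (by omega)
    have := dist_triangle x p z
    have := mem_ball.1 hx
    linarith
  have hNext := P.reproL h hmin hξ hne hne' hs hx hTv hA' hsA' hA's hs' ht hTw hB' hsB' hB's
    (hev _ dv) (hev _ dw)
  obtain ⟨s0, hs0, hs0s, hC2⟩ := pair_of306 P.hz.cardC hs
  have hxz : x ∉ T z := by rw [P.cz]; exact fun h1 => h1 hx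
  have hs0v : s0 ∉ T (z + ξ) := by
    rw [hTv]
    rintro (h1 | h1 | h1)
    · exact hs0.2 h1
    · exact hs0s h1
    · rw [mem_singleton_iff] at h1
      exact hxz (h1 ▸ hs0.1)
  have hs0y : s0 ∈ T y := by
    have : s0 ∈ T y \ B := P.hC ▸ hs0
    exact this.1
  have hdvz : dist (z + ξ) z = 1 := by rw [dist_eq_norm, add_sub_cancel_left]; exact hξ
  refine ⟨⟨s, hs, by rw [hTv]; exact Or.inr (Or.inl rfl)⟩, ⟨A', B', hNext⟩, ?_,
    fun h1 => hs0v (h1 hs0.1), ?_⟩
  · rw [Set.disjoint_left]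
    intro δ hδ hδz
    obtain ⟨τ, hτ, hτs, hA2⟩ := pair_of306 hA'.cardA hsA'
    have hτA : τ ∈ A := by
      rcases hA's hτ with h1 | h1
      · exact absurd h1 hτs
      · exact h1
    have h1 : A' ⊆ T (z + ξ + δ) :=
      hA'.h1 _ (by rw [dist_eq_norm, add_sub_cancel_left]; exact hδ.1) hδ.2
    have h2 : dist (z + δ) z = 1 := by rw [dist_eq_norm, add_sub_cancel_left]; exact hδz.1
    have h3 : dist (z + δ) (z + ξ + δ) = 1 := by
      rw [dist_comm, dist_eq_norm]
      have : z + ξ + δ - (z + δ) = ξ := by ring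
      rw [this]; exact hξ
    have hJ : ∀ᶠ q in 𝓝[sphere z 1] (z + δ), τ ∈ Pal U q := by
      have e1 : ∀ᶠ q in 𝓝[sphere z 1] (z + δ), T q ⊆ T (z + δ) :=
        mem_nhdsWithin_of_mem_nhds (h.nhd (z + δ))
      have e2 : ∀ᶠ q in 𝓝[sphere z 1] (z + δ), dist q z = 1 := self_mem_nhdsWithin
      filter_upwards [e1, e2] with q hq1 hq2
      exact h.sub q (P.hz.h1 q hq2 (hq1.trans hδz.2) hτA)
    rcases h.mx.partner_line (v := z + ξ + δ) h2 hJ h3 (h.sub _ (h1 hτ)) with h4 | h4
    · have h5 := hδ.2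
      rw [h4] at h5
      exact hs0v (h5 hs0.1)
    · have h5 : ξ = δ := by linear_combination h4
      rw [h5] at hn
      exact hn hδz.2
  · have hf : ∃ᶠ q in 𝓝[sphere (z + ξ) 1] z, s0 ∉ T q := by
      intro hcon
      rcases h.mx.partner_line (v := y) (by rw [dist_comm]; exact hdvz)
        (hcon.mono fun q hq => h.sub q (not_not.1 hq)) P.d (h.sub y hs0y) with h1 | h1
      · exact hne' (by linear_combination -h1)
      · exact hne (by linear_combination h1)
    have e1 : ∀ᶠ q in 𝓝[sphere (z + ξ) 1] z, T q ⊆ T z := mem_nhdsWithin_of_mem_nhds (h.nhd z)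
    refine (hf.and_eventually e1).mono fun q hq i hi => ?_
    have h1 := hq.2 hi
    rw [hTv]
    by_cases hiA : i ∈ A
    · exact Or.inl hiA
    · have h2 : i ∈ T z \ A := ⟨h1, hiA⟩
      rw [hC2] at h2
      rcases h2 with h2 | h2
      · exact Or.inr (Or.inl h2)
      · rw [mem_singleton_iff] at h2
        exact absurd (h2 ▸ hi) hq.1

/-- **No D-star pair**, local form. -/
theorem false_loc (P : DP T z y A B) (h : Irr U T) (hmin : MinF U T)
    (H : ∀ x, dist x z < 8 → 4 ≤ (T x).ncard → ∃ A, Harm T x A) : False := by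
  have hpi := Real.pi_pos
  set n : ℂ := y - z with hn
  have hn1 : ‖n‖ = 1 := by rw [hn, ← dist_eq_norm, dist_comm]; exact P.d
  have epi : ∀ t : ℝ, cis (t + Real.pi) = -cis t := by
    intro t
    rw [cis, cis, Complex.ofReal_add, add_mul, Complex.exp_add, Complex.exp_pi_mul_I]; ring
  let S : ℕ → Set ℂ := fun k => {z' | k ≤ 4 ∧ dist z' z ≤ 4 - k ∧ ∃ A B, DP T z' (z' + n) A B}
  have hLc : ∀ k, ∀ z' ∈ S k, Lc T z' := by
    rintro k z' ⟨hk, hd, -⟩ x hx h4
    refine H x ?_ h4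
    have := dist_triangle x z' z
    have : (0 : ℝ) ≤ k := Nat.cast_nonneg k
    linarith
  have hends : ∀ k, ∀ z' ∈ S k, ∀ b, b ∈ closure (DO T n z') → b ∉ DO T n z' →
      (∃ A B, DP T z' (z' + n) A B ∧ ∃ s ∈ T z' \ A, s ∈ T (z' + Complex.I * n * cis b)) ∧
      (∃ A' B', DP T (z' + Complex.I * n * cis b) (z' + Complex.I * n * cis b + n) A' B') ∧
      Disjoint (Dir T (z' + Complex.I * n * cis b)) (Dir T z') ∧
      (¬ T z' ⊆ T (z' + Complex.I * n * cis b)) ∧
      ∃ᶠ x in 𝓝[sphere (z' + Complex.I * n * cis b) 1] z',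
        T x ⊆ T (z' + Complex.I * n * cis b) := by
    intro k z' hz' b hb hb'
    have hL := hLc k z' hz'
    obtain ⟨-, -, A0, B0, Q⟩ := hz'
    obtain ⟨h1, ⟨A', B', h2⟩, h3, h4, h5⟩ := Q.end_all306 h hmin hL (norm_In hn1 b)
      (closure_DO306 hn1 hb) hb'
    refine ⟨⟨A0, B0, Q, h1⟩, ⟨A', B', ?_⟩, h3, h4, h5⟩
    have e : z' + n + Complex.I * n * cis b = z' + Complex.I * n * cis b + n := by ring
    rw [e] at h2
    exact h2
  have e1 : cis (Real.pi / 2) = Complex.I := by
    rw [cis]; push_cast; exact Complex.exp_pi_div_two_mul_I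
  have e2 : cis (-(Real.pi / 2)) = -Complex.I := by
    rw [cis]; push_cast
    rw [neg_mul, Complex.exp_neg, Complex.exp_pi_div_two_mul_I, Complex.inv_I]
  have hmeet : ∀ k, ∀ z' ∈ S k,
      (-(Real.pi / 6) ∈ closure (DO T n z') ∨ Real.pi / 6 ∈ closure (DO T n z')) ∧
      (-(Real.pi / 6) + Real.pi ∈ closure (DO T n z') ∨
        Real.pi / 6 + Real.pi ∈ closure (DO T n z')) := by
    intro k z' hz'
    have hL := hLc k z' hz'
    obtain ⟨-, -, A0, B0, Q⟩ := hz'
    have hyz : dist (z' + n) z' = 1 := by rw [dist_eq_norm, add_sub_cancel_left]; exact hn1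
    have hD : DS T z' (z' + n) A0 B0 := ⟨Q.hz, Q.hy, hyz, Q.hC, by
      rw [Q.cz]; exact disjoint_compl_right⟩
    have h1 := hD.meets_psi h hmin hL (Q.hz.side h Q.hy Q.hC hyz)
    have e3 : -(Real.pi / 6) + Real.pi = 5 * Real.pi / 6 := by ring
    have e4 : Real.pi / 6 + Real.pi = 7 * Real.pi / 6 := by ring
    rw [e3, e4]
    rw [add_sub_cancel_left] at h1
    exact h1
  have hS : S 4 = ∅ := by
    refine dstar_endL S (fun z' => DO T n z') (fun k z' _ => DO_open h n z') ?_ ?_ ?_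
      (fun k z' hz' => (hmeet k z' hz').1) (fun k z' hz' => (hmeet k z' hz').2) ?_
    · rintro k z' ⟨-, -, A0, B0, Q⟩ h1
      have h2 := closure_DO306 (T := T) (z := z') hn1 h1
      rw [e2] at h2
      refine (Q.notAxis306 h).2 ?_
      have e : z' + n - z' = Complex.I * n * -Complex.I := by
        have := Complex.I_mul_I
        linear_combination n * this
      rw [e]; exact h2
    · rintro k z' ⟨-, -, A0, B0, Q⟩ h1
      have h2 := closure_DO306 (T := T) (z := z') hn1 h1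
      rw [e1] at h2
      refine (Q.notAxis306 h).1 ?_
      have e : z' - (z' + n) = Complex.I * n * Complex.I := by
        have := Complex.I_mul_I
        linear_combination -n * this
      rw [e]; exact h2
    · intro k z' hz' b hb1 hb2 hb
      rcases hb with ⟨h1, h2⟩ | ⟨h1, h2⟩
      · obtain ⟨⟨A0, B0, Q, s, hs, hsv⟩, -⟩ := hends k z' hz' b h1 h2
        exact Q.hz.hull_psi h hn1 Q.hy Q.hC hb1 hb2 (Or.inl rfl) hs hsv
      · obtain ⟨⟨A0, B0, Q, s, hs, hsv⟩, -⟩ := hends k z' hz' _ h1 h2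
        exact Q.hz.hull_psi h hn1 Q.hy Q.hC hb1 hb2 (Or.inr rfl) hs hsv
    · intro k z' hz' b hb1 hb2 hb hb'
      obtain ⟨-, hN, hdis, hnot, hfr⟩ := hends (k + 1) z' hz' b hb hb'
      obtain ⟨hk, hd, -⟩ := hz'
      refine ⟨z' + Complex.I * n * cis b, ⟨by omega, ?_, hN⟩, ?_, ?_, ?_⟩
      · have h1 := dist_triangle (z' + Complex.I * n * cis b) z' z
        rw [dist_In hn1 z' b] at h1
        push_cast at hd
        linarith
      · rw [Set.disjoint_left]
        intro t h1 h2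
        exact Set.disjoint_left.1 hdis (show Complex.I * n * cis t ∈ _ from ⟨norm_In hn1 t, h1⟩)
          ⟨norm_In hn1 t, h2⟩
      · have hd' : dist z' (z' + Complex.I * n * cis b) = 1 := by
          rw [dist_comm]; exact dist_In hn1 z' b
        have h2 : ∃ᶠ t : ℝ in 𝓝 0, T (z' + Complex.I * n * cis b +
            (z' - (z' + Complex.I * n * cis b)) * cis t) ⊆ T (z' + Complex.I * n * cis b) := by
          intro h3
          exact hfr ((eventually_circle hd').2 h3)
        have hc : Tendsto (fun t : ℝ => b + Real.pi + t) (𝓝 0) (𝓝 (b + Real.pi)) := by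
          have : Continuous fun t : ℝ => b + Real.pi + t := continuous_const.add continuous_id
          have h4 := this.tendsto 0
          rwa [add_zero] at h4
        rw [mem_closure_iff_frequently]
        refine hc.frequently (h2.mono fun t ht => ?_)
        show T (z' + Complex.I * n * cis b + Complex.I * n * cis (b + Real.pi + t)) ⊆ _
        have e : z' + Complex.I * n * cis b + Complex.I * n * cis (b + Real.pi + t) =
            z' + Complex.I * n * cis b + (z' - (z' + Complex.I * n * cis b)) * cis t := by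
          rw [cis_add394, epi]; ring
        rw [e]; exact ht
      · intro h1
        have h1 : T (z' + Complex.I * n * cis b + Complex.I * n * cis (b + Real.pi)) ⊆
            T (z' + Complex.I * n * cis b) := h1
        rw [epi] at h1
        have e : z' + Complex.I * n * cis b + Complex.I * n * -cis b = z' := by ring
        rw [e] at h1
        exact hnot h1
  have hz : z ∈ S 4 := ⟨le_rfl, by simp, A, B, by rw [hn, add_sub_cancel]; exact P⟩
  rw [hS] at hz
  exact hz

end DP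

/-- **No D-star pair in a disc without D-points.** -/
theorem Irr.noStar_disc (h : Irr U T) (hmin : MinF U T) {c : ℂ} {R : ℝ}
    (hH : ∀ x, dist x c ≤ R → 4 ≤ (T x).ncard → ∃ A, Harm T x A) {z z' : ℂ}
    {A A' : Set (Fin 6)} (hz : dist z c + 8 ≤ R) (hA : Harm T z A) (hA' : Harm T z' A')
    (hd : dist z z' = 1) : T z \ A ≠ T z' \ A' := by
  intro hC
  refine (DP.of h hA hA' hd hC).false_loc h hmin fun x hx h4 => hH x ?_ h4
  have := dist_triangle x z c
  linarith

end Vale.Agent.P032.Six
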