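import Vale.Agent.P032.S5.H827.Edge

/-!
# P032: D-star pairs, definitions

`Fr U T` : the frame in which there is no `D`-point: at most four colours, every four-coloured point
is harmless.  `DP T z y A B` : a `D`-star pair.  `Out`, `Inn` : a colour is near `v` only outside /
inside the unit disc about `z`.
-/

open Set Filter Topology Metric

noncomputable section

namespace Vale.Agent.P032.Six

variable {U : Fin 6 → Set ℂ} {T : ℂ → Set (Fin 6)}

/-- the frame without `D`-points -/
structure Fr (U : Fin 6 → Set ℂ) (T : ℂ → Set (Fin 6)) : Prop where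
  irr : Irr U T
  min : MinF U T
  le4 : ∀ x, (T x).ncard ≤ 4
  harm : ∀ x, (T x).ncard = 4 → ∃ A, Harm T x A

/-- a `D`-star pair -/
structure DP (T : ℂ → Set (Fin 6)) (z y : ℂ) (A B : Set (Fin 6)) : Prop where
  hz : Harm T z A
  hy : Harm T y B
  d : dist z y = 1
  hC : T z \ A = T y \ B
  cz : T z = Bᶜ
  cy : T y = Aᶜ

/-- the colour `m` is near `v` only outside the open unit disc about `z` -/
def Out (T : ℂ → Set (Fin 6)) (m : Fin 6) (v z : ℂ) : Prop :=
  ∀ᶠ p in 𝓝 v, m ∈ T p → 1 ≤ dist p z

/-- the colour `m` is near `v` only in the closed unit disc about `z` -/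
def Inn (T : ℂ → Set (Fin 6)) (m : Fin 6) (v z : ℂ) : Prop :=
  ∀ᶠ p in 𝓝 v, m ∈ T p → dist p z ≤ 1

/-- the directions of the points of the unit circle about `z` with palette in `T z` -/
def Dir (T : ℂ → Set (Fin 6)) (z : ℂ) : Set ℂ := {ξ | ‖ξ‖ = 1 ∧ T (z + ξ) ⊆ T z}

namespace DP

variable {z y : ℂ} {A B : Set (Fin 6)}

theorem symm (P : DP T z y A B) : DP T y z B A :=
  ⟨P.hy, P.hz, by rw [dist_comm]; exact P.d, P.hC.symm, P.cy, P.cz⟩

theorem disj (P : DP T z y A B) : Disjoint A B := by
  rw [Set.disjoint_left]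
  intro i hi hi'
  have h1 := P.hz.sub hi
  rw [P.cz] at h1
  exact h1 hi'

/-- the two common colours, and the sizes -/
theorem of (h : Irr U T) (hz : Harm T z A) (hy : Harm T y B) (d : dist z y = 1)
    (hC : T z \ A = T y \ B) : DP T z y A B := by
  have h1 : Disjoint B (T z) := hz.far_pair h hy (by rw [dist_comm]; exact d) hC
  have h2 : Disjoint A (T y) := hy.far_pair h hz d hC.symm
  have key : ∀ (s t : Set (Fin 6)), s.ncard = 4 → t.ncard = 2 → Disjoint t s → s = tᶜ := by
    intro s t hs ht hst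
    have h3 : s ⊆ tᶜ := fun i hi hit => Set.disjoint_left.1 hst hit hi
    refine Set.eq_of_subset_of_ncard_le h3 ?_ (Set.toFinite _)
    have h4 := Set.ncard_add_ncard_compl t
    simp only [Nat.card_eq_fintype_card, Fintype.card_fin] at h4
    omega
  exact ⟨hz, hy, d, hC, key _ _ hz.card hy.cardA h1, key _ _ hy.card hz.cardA h2⟩

end DP

end Vale.Agent.P032.Six
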