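import Vale.Agent.P032.S5.H306.Defs

/-!
# P032: the end of a D-star pair is again a D-star pair

`DP.repro` : `v = z + ξ`, `w = y + ξ` the two ends of the arcs of a D-star pair `z, y` in the same
direction, with their palettes and broken pairs as given by the lemma on ends: `v, w` is a D-star
pair.
-/

open Set Filter Topology Metric

noncomputable section

namespace Vale.Agent.P032.Six

variable {U : Fin 6 → Set ℂ} {T : ℂ → Set (Fin 6)}

/-- unit circles about points near `v` cross the unit circle about `y` near `w` -/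
theorem cross_near306 {y w v : ℂ} (hw : dist w y = 1) (hv : dist w v = 1) (h1 : y ≠ v)
    (h2 : y + v ≠ 2 * w) {N : Set ℂ} (hN : N ∈ 𝓝 w) :
    ∀ᶠ p in 𝓝 v, ∃ w' ∈ N, dist w' y = 1 ∧ dist w' p = 1 := by
  obtain ⟨t0, ht0⟩ := exists_cis (u := w - y) (by rw [← dist_eq_norm]; exact hw)
  have hwt : y + cis t0 = w := by rw [← ht0]; ring
  have hc : ContinuousAt (fun t => y + cis t) t0 :=
    (continuous_const.add continuous_cis).continuousAt
  have hpre : (fun t => y + cis t) ⁻¹' N ∈ 𝓝 t0 := hc.preimage_mem_nhds (by rw [hwt]; exact hN)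
  obtain ⟨η, hη, hball⟩ := Metric.mem_nhds_iff.1 hpre
  have hcr : cr (cis t0) (y + cis t0 - v) ≠ 0 := by
    rw [hwt, ← ht0]
    exact cr_ne hw hv h1 h2
  filter_upwards [crossing (c := y) (q₀ := v) (t0 := t0) (by rw [hwt]; exact hv) hcr hη]
    with p hp
  obtain ⟨t, ht, ht1⟩ := hp
  exact ⟨y + cis t, hball (by rw [mem_ball, Real.dist_eq]; exact ht), dist_add_cis y t, ht1⟩

namespace DP

variable {z y : ℂ} {A B : Set (Fin 6)}

/-- one half of the reproduction lemma -/
theorem repro_aux (F : Fr U T) (P : DP T z y A B) {ξ : ℂ} (hξ : ‖ξ‖ = 1) (hne : ξ ≠ z - y)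
    (hne' : ξ ≠ y - z) {s x s' t : Fin 6} {A' B' : Set (Fin 6)} (hs : s ∈ T z \ A) (hx : x ∈ B)
    (hTv : T (z + ξ) = A ∪ {s, x}) (hv : Harm T (z + ξ) A') (hsA : s ∈ A')
    (hA' : A' ⊆ insert s A) (hs' : s' ∈ T y \ B) (ht : t ∈ A) (hTw : T (y + ξ) = B ∪ {s', t})
    (hw : Harm T (y + ξ) B') (hsB : s' ∈ B') : t ∉ A' := by
  intro htA
  have h := F.irr
  set v := z + ξ with hvdef
  set w := y + ξ with hwdef
  have hdvw : dist w v = 1 := by
    rw [hvdef, hwdef, dist_add_right, dist_comm]; exact P.d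
  have hdwy : dist w y = 1 := by
    rw [hwdef, dist_eq_norm, add_sub_cancel_left]; exact hξ
  have hyv : y ≠ v := fun h1 => hne' (by rw [hvdef] at h1; linear_combination -h1)
  have hyv2 : y + v ≠ 2 * w := fun h1 => hne (by
    rw [hvdef, hwdef] at h1; linear_combination -h1)
  have hzy : z ≠ y := by
    rintro rfl
    have := P.d
    rw [dist_self] at this
    exact absurd this (by norm_num)
  -- colours
  have hAB : Disjoint A B := P.disj
  have htB : t ∉ B := fun h1 => Set.disjoint_left.1 hAB ht h1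
  have hxA : x ∉ A := fun h1 => Set.disjoint_left.1 hAB h1 hx
  have hxt : x ≠ t := fun h1 => hxA (h1 ▸ ht)
  have hst : s ≠ t := fun h1 => hs.2 (h1 ▸ ht)
  have hs'A : s' ∉ A := by
    intro h1
    have := hs'.1
    rw [P.cy] at this
    exact this h1
  obtain ⟨t', ht', ht't⟩ : ∃ t' ∈ A, t' ≠ t := by
    by_contra hcon
    push Not at hcon
    have := Set.ncard_le_ncard (show A ⊆ {t} from fun i hi => hcon i hi) (Set.toFinite _)
    rw [P.hz.cardA, Set.ncard_singleton] at this
    omega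
  have hA2 : A = {t, t'} := by
    refine (Set.eq_of_subset_of_ncard_le (s := {t, t'}) ?_ ?_ (Set.toFinite _)).symm
    · rintro i (rfl | rfl)
      · exact ht
      · exact ht'
    · rw [P.hz.cardA, Set.ncard_pair (Ne.symm ht't)]
  have hA'2 : A' = {t, s} := by
    refine (Set.eq_of_subset_of_ncard_le (s := {t, s}) ?_ ?_ (Set.toFinite _)).symm
    · rintro i (rfl | rfl)
      · exact htA
      · exact hsA
    · rw [hv.cardA, Set.ncard_pair (Ne.symm hst)]
  -- `T w' ⊆ T y` for palettes without `t`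
  have hsubY : ∀ S : Set (Fin 6), S ⊆ T w → t ∉ S → S ⊆ T y := by
    intro S hS htS i hi
    have h1 := hS hi
    rw [hTw] at h1
    rcases h1 with h1 | h1 | h1
    · exact P.hy.sub h1
    · rw [h1]; exact hs'.1
    · rw [mem_singleton_iff] at h1
      exact absurd (h1 ▸ hi) htS
  -- step 1
  have hfarnhds : ∀ᶠ pw in 𝓝 (v, w), pw.1 ≠ y ∧ pw.1 + y ≠ 2 * pw.2 := by
    have c1 : Continuous fun pw : ℂ × ℂ => pw.1 := continuous_fst
    have c2 : Continuous fun pw : ℂ × ℂ => pw.1 + y - 2 * pw.2 := by fun_prop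
    have e1 := c1.continuousAt.eventually (isOpen_ne.mem_nhds
      (show (fun pw : ℂ × ℂ => pw.1) (v, w) ≠ y from Ne.symm hyv))
    have e2 := c2.continuousAt.eventually (isOpen_ne.mem_nhds
      (show (fun pw : ℂ × ℂ => pw.1 + y - 2 * pw.2) (v, w) ≠ 0 from fun h1 => hyv2 (by
        simp only at h1
        linear_combination h1)))
    filter_upwards [e1, e2] with pw h1 h2
    exact ⟨h1, fun h3 => h2 (by rw [h3]; ring)⟩
  obtain ⟨Nv, hNv, Nw, hNw, hNN⟩ := mem_nhds_prod_iff.1 hfarnhds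
  have hstep1 : ∀ᶠ p in 𝓝 v, T p ≠ {t, x} := by
    have hNw2 : {w' : ℂ | w' ∈ Nw ∧ T w' ⊆ T w ∧ (4 ≤ (T w').ncard → T w' = T w) ∧
        ∀ A'', Harm T w' A'' → T w' = T w ∧ A'' = B'} ∈ 𝓝 w :=
      Filter.inter_mem hNw ((h.nhd w).and ((hw.full h).and (hw.nhd h)))
    filter_upwards [cross_near306 hdwy hdvw hyv hyv2 hNw2, hNv] with p hp hpN hTp
    obtain ⟨w', ⟨hw'N, hw'sub, hw'full, hw'harm⟩, hw'y, hw'p⟩ := hp
    obtain ⟨hpy, hpy2⟩ := hNN (mk_mem_prod hpN hw'N)
    simp only at hpy hpy2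
    have htp : t ∈ T p := by rw [hTp]; simp
    have hxp : x ∈ T p := by rw [hTp]; simp
    -- both colours
    have hboth : t ∈ T w' ∧ x ∈ T w' := by
      by_contra hcon
      by_cases htw : t ∈ T w'
      · -- no `x`
        have hxw : x ∉ T w' := fun h1 => hcon ⟨htw, h1⟩
        have harc : ∀ᶠ q in 𝓝[sphere y 1] w', t ∈ Pal U q := by
          filter_upwards [mem_nhdsWithin_of_mem_nhds (h.nhd w'), self_mem_nhdsWithin]
            with q hq1 hq2
          by_contra htq
          have h1 : t ∉ T q := fun h2 => htq (h.sub q h2)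
          have h3 := P.hy.h1 q hq2 (hsubY _ (hq1.trans hw'sub) h1)
          exact hxw (hq1 (h3 hx))
        rcases h.mx.partner_line hw'y harc hw'p (h.sub p htp) with h1 | h1
        · exact hpy h1
        · exact hpy2 h1
      · have h1 := P.hy.h1 w' hw'y (hsubY _ hw'sub htw)
        have harc : ∀ᶠ q in 𝓝[sphere y 1] w', x ∈ Pal U q := by
          filter_upwards [mem_nhdsWithin_of_mem_nhds (h.nhd w'), self_mem_nhdsWithin]
            with q hq1 hq2
          exact h.sub q (P.hy.h1 q hq2 (hq1.trans (hsubY _ hw'sub htw)) hx)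
        rcases h.mx.partner_line hw'y harc hw'p (h.sub p hxp) with h1 | h1
        · exact hpy h1
        · exact hpy2 h1
    have hsub : T p ⊆ T w' := by
      rw [hTp]
      rintro i (rfl | rfl)
      · exact hboth.1
      · exact hboth.2
    have hpw' : dist p w' = 1 := by rw [dist_comm]; exact hw'p
    by_cases h4 : 4 ≤ (T w').ncard
    · have h5 : T w' = T w := hw'full h4
      have h6 : (T w').ncard = 4 := by rw [h5]; exact hw.card
      obtain ⟨A'', hA''⟩ := F.harm w' h6
      obtain ⟨-, h7⟩ := hw'harm A'' hA''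
      have h8 := hA''.h1 p hpw' hsub
      rw [h7] at h8
      have h9 := h8 hsB
      rw [hTp] at h9
      rcases h9 with h9 | h9
      · exact hs'A (h9 ▸ ht)
      · rw [mem_singleton_iff] at h9
        exact hs'.2 (h9 ▸ hx)
    · exact h.not_sub (x := w') (y := p) hpw' (by omega) hsub
  -- step 2
  have hstep2 : ∀ᶠ p in 𝓝 v, ∀ b ∈ T p, t ∈ T p → b = t ∨ t' ∈ T p := by
    filter_upwards [h.nhd v, hv.layerE h, hstep1] with p h1 h2 h3 b hb htp
    by_contra hcon
    push Not at hcon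
    obtain ⟨hbt, ht'p⟩ := hcon
    have hsp : s ∉ T p := by
      intro hsp
      have h4 : T p = T v := h2 (by
        rw [hA'2]
        rintro i (rfl | rfl)
        · exact htp
        · exact hsp)
      refine ht'p ?_
      rw [h4, hTv]
      exact Or.inl ht'
    have hmem : ∀ i ∈ T p, i = t ∨ i = x := by
      intro i hi
      have h4 := h1 hi
      rw [hTv, hA2] at h4
      rcases h4 with (h4 | h4) | h4 | h4
      · exact Or.inl h4
      · exact absurd (h4 ▸ hi) ht'p
      · exact absurd (h4 ▸ hi) hsp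
      · exact Or.inr h4
    refine h3 (Subset.antisymm (fun i hi => hmem i hi) ?_)
    have hbx : b = x := (hmem b hb).resolve_left hbt
    rintro i (rfl | hi)
    · exact htp
    · rw [mem_singleton_iff] at hi
      rw [hi, ← hbx]; exact hb
  -- step 3
  obtain ⟨p0, hp0, hJ⟩ := hv.arc
  have ht'v : t' ∈ T v := by rw [hTv]; exact Or.inl ht'
  have htv : t ∈ T v := by rw [hTv]; exact Or.inl ht
  have h5 := h.sole (h.sub v ht'v) hstep2 hp0 (hJ.mono fun q hq => h.sub q (by rw [hq]; exact htA))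
  refine F.min v (by rw [hv.card]) (T v \ {t}) sdiff_subset (fun hcon => ?_)
    (h.suf_of_single (Ne.symm ht't) ht'v h5)
  have : t ∈ T v \ {t} := by rw [hcon]; exact htv
  exact this.2 rfl

/-- **Reproduction.** -/
theorem repro (F : Fr U T) (P : DP T z y A B) {ξ : ℂ} (hξ : ‖ξ‖ = 1) (hne : ξ ≠ z - y)
    (hne' : ξ ≠ y - z) {s x s' t : Fin 6} {A' B' : Set (Fin 6)} (hs : s ∈ T z \ A) (hx : x ∈ B)
    (hTv : T (z + ξ) = A ∪ {s, x}) (hv : Harm T (z + ξ) A') (hsA : s ∈ A')
    (hA' : A' ⊆ insert s A) (hs' : s' ∈ T y \ B) (ht : t ∈ A) (hTw : T (y + ξ) = B ∪ {s', t})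
    (hw : Harm T (y + ξ) B') (hsB : s' ∈ B') (hB' : B' ⊆ insert s' B) :
    DP T (z + ξ) (y + ξ) A' B' := by
  have h1 : t ∉ A' := P.repro_aux F hξ hne hne' hs hx hTv hv hsA hA' hs' ht hTw hw hsB
  have h2 : x ∉ B' := P.symm.repro_aux F hξ hne' hne hs' ht hTw hw hsB hB' hs hx hTv hv hsA
  have key : ∀ {A A' S : Set (Fin 6)} {s x t : Fin 6}, A.ncard = 2 → A'.ncard = 2 → t ∈ A →
      s ∉ A → x ∉ A → x ≠ s → A' ⊆ insert s A → s ∈ A' → t ∉ A' → S = A ∪ {s, x} →
      S \ A' = {t, x} := by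
    intro A A' S s x t hA hA' ht hs hx hxs hsub hsA htA hS
    obtain ⟨t', ht', ht't⟩ : ∃ t' ∈ A, t' ≠ t := by
      by_contra hcon
      push Not at hcon
      have := Set.ncard_le_ncard (show A ⊆ {t} from fun i hi => hcon i hi) (Set.toFinite _)
      rw [hA, Set.ncard_singleton] at this
      omega
    have hA2 : A = {t, t'} := by
      refine (Set.eq_of_subset_of_ncard_le (s := {t, t'}) ?_ ?_ (Set.toFinite _)).symm
      · rintro i (rfl | rfl)
        · exact ht
        · exact ht'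
      · rw [hA, Set.ncard_pair (Ne.symm ht't)]
    have hst' : s ≠ t' := fun h3 => hs (h3 ▸ ht')
    have hA'2 : A' = {s, t'} := by
      refine Set.eq_of_subset_of_ncard_le ?_ (by rw [hA', Set.ncard_pair hst']) (Set.toFinite _)
      intro i hi
      have h3 := hsub hi
      rw [hA2] at h3
      rcases h3 with h3 | h3 | h3
      · exact Or.inl h3
      · exact absurd (h3 ▸ hi) htA
      · exact Or.inr h3
    have hxt' : x ≠ t' := fun h3 => hx (h3 ▸ ht')
    have hts : t ≠ s := fun h3 => hs (h3 ▸ ht)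
    rw [hS, hA2, hA'2]
    ext i
    simp only [Set.mem_sdiff, Set.mem_union, mem_insert_iff, mem_singleton_iff]
    constructor
    · rintro ⟨(h3 | h3) | h3 | h3, h4⟩
      · exact Or.inl h3
      · exact absurd (Or.inr h3) h4
      · exact absurd (Or.inl h3) h4
      · exact Or.inr h3
    · rintro (rfl | rfl)
      · exact ⟨Or.inl (Or.inl rfl), fun h3 => h3.elim hts (fun h4 => ht't h4.symm)⟩
      · exact ⟨Or.inr (Or.inr rfl), fun h3 => h3.elim hxs hxt'⟩
  have hAB := P.disj
  have hxA : x ∉ A := fun h3 => Set.disjoint_left.1 hAB h3 hx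
  have htB : t ∉ B := fun h3 => Set.disjoint_left.1 hAB ht h3
  have hsB' : s ∉ B := by
    have h3 : s ∈ T y \ B := P.hC ▸ hs
    exact h3.2
  have hs'A : s' ∉ A := by
    have h3 : s' ∈ T z \ A := P.hC ▸ hs'
    exact h3.2
  have e1 : T (z + ξ) \ A' = {t, x} :=
    key P.hz.cardA hv.cardA ht hs.2 hxA (fun h3 => hsB' (h3 ▸ hx)) hA' hsA h1 hTv
  have e2 : T (y + ξ) \ B' = {x, t} :=
    key P.hy.cardA hw.cardA hx hs'.2 htB (fun h3 => hs'A (h3 ▸ ht)) hB' hsB h2 hTw
  exact DP.of F.irr hv hw (by rw [dist_add_right]; exact P.d) (by rw [e1, e2, Set.pair_comm])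

end DP

end Vale.Agent.P032.Six
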