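import Vale.Agent.P032.S5.H11.DiscD
import Vale.Agent.P032.S5.H843.DiscU

/-!
# P032: two-pair points in discs, with points of five and six colours

`Irr.disc_core` : if every point of a disc of radius `22` has at most five colours and the points
with five colours have clean circles, then the disc contains a two-pair point, provided that clean
points with five colours have a two-pair point within distance two.
`Irr.disc_core6` : the same without the bound on the number of colours.
-/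

open Set Filter Topology Metric

noncomputable section

namespace Vale.Agent.P032.Six

variable {U : Fin 6 → Set ℂ} {T : ℂ → Set (Fin 6)}

/-- **Disc form, at most five colours** -/
theorem Irr.disc_core (h : Irr U T) (hmin : Mn U T) (c : ℂ)
    (hU : ∀ z, dist z c ≤ 22 → ∀ v, dist z v = 1 → 4 ≤ (T v).ncard → (T z).ncard ≤ 4)
    (hm : ∀ z, dist z c ≤ 22 → (T z).ncard ≤ 5)
    (H5 : ∀ z, dist z c ≤ 20 → (T z).ncard = 5 → (∀ y, dist y z = 1 → (T y).ncard ≤ 3) →
      (∀ w, dist w z ≤ 2 → ∀ a b c' d, ¬ DPt T w a b c' d) → False) :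
    ∃ z, dist z c ≤ 22 ∧ ∃ a b c' d, DPt T z a b c' d := by
  by_contra hcon
  push Not at hcon
  obtain ⟨z, hz, a, b, c', d, hD⟩ := h.exists_D_disc hmin c fun z hz => by
    by_contra h4
    have h5 := hm z (by linarith)
    refine H5 z hz (by omega) (fun y hy => ?_) fun w hw => ?_
    · by_contra h3
      have := hU z (by linarith) y (by rw [dist_comm]; exact hy) (by omega)
      omega
    · refine hcon w ?_
      have := dist_triangle w z c
      linarith
  exact hcon z (by linarith) a b c' d hD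

/-- **Disc form, no bound on the number of colours** -/
theorem Irr.disc_core6 (h : Irr U T) (hmin : Mn U T) (c : ℂ) {r : ℝ} (hr : 0 ≤ r)
    (hU : ∀ z, dist z c ≤ 22 + r → ∀ v, dist z v = 1 → 4 ≤ (T v).ncard → (T z).ncard ≤ 4)
    (H5 : ∀ z, dist z c ≤ 20 + r → (T z).ncard = 5 → (∀ y, dist y z = 1 → (T y).ncard ≤ 3) →
      (∀ w, dist w z ≤ 2 → ∀ a b c' d, ¬ DPt T w a b c' d) → False)
    (H6 : ∀ z, dist z c ≤ 20 → (T z).ncard = 6 →
      (∀ w, dist w z ≤ r → 5 ≤ (T w).ncard → ∀ y, dist y w = 1 → (T y).ncard ≤ 3) →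
      (∀ w, dist w z ≤ r → (T w).ncard ≠ 5) →
      (∀ w, dist w z ≤ r → ∀ a b c' d, ¬ DPt T w a b c' d) → False) :
    ∃ z, dist z c ≤ 22 + r ∧ ∃ a b c' d, DPt T z a b c' d := by
  by_contra hcon
  push Not at hcon
  have hcl : ∀ z, dist z c ≤ 22 + r → 5 ≤ (T z).ncard → ∀ y, dist y z = 1 → (T y).ncard ≤ 3 := by
    intro z hz h5 y hy
    by_contra h3
    have := hU z hz y (by rw [dist_comm]; exact hy) (by omega)
    omega
  have hn5 : ∀ z, dist z c ≤ 20 + r → (T z).ncard ≠ 5 := fun z hz h5 =>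
    H5 z hz h5 (hcl z (by linarith) h5.ge) fun w hw => by
      refine hcon w ?_
      have := dist_triangle w z c
      linarith
  obtain ⟨z, hz, a, b, c', d, hD⟩ := h.exists_D_disc hmin c fun z hz => by
    by_contra h4
    have h6 : (T z).ncard ≤ 6 := by
      have h1 := Set.ncard_le_ncard (s := T z) (t := univ) (subset_univ _) (Set.toFinite _)
      rwa [Set.ncard_univ, Nat.card_eq_fintype_card, Fintype.card_fin] at h1
    have h5 := hn5 z (by linarith)
    refine H6 z hz (by omega) (fun w hw => hcl w ?_) (fun w hw => hn5 w ?_) fun w hw => hcon w ?_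
    all_goals
      have := dist_triangle w z c
      linarith
  exact hcon z (by linarith) a b c' d hD

end Vale.Agent.P032.Six

namespace Vale.Agent.P032.S5.H306

open Vale.Agent.P032.Six Vale.Agent.P032.S5.H843

/-- clean points with five colours have two-pair points nearby -/
def NoFiveLoc : Prop :=
  ∀ (U : Fin 6 → Set ℂ) (T : ℂ → Set (Fin 6)), Irr U T → Mn U T →
    ∀ z, (T z).ncard = 5 → (∀ y, dist y z = 1 → (T y).ncard ≤ 3) →
      (∀ w, dist w z ≤ 2 → ∀ a b c d, ¬ DPt T w a b c d) → False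

/-- clean points with six colours are impossible if nearby all points with more than four colours
are clean points with six colours and there are no two-pair points nearby -/
def NoSixLoc (r : ℝ) : Prop :=
  ∀ (U : Fin 6 → Set ℂ) (T : ℂ → Set (Fin 6)), Irr U T → Mn U T →
    ∀ z, (T z).ncard = 6 →
      (∀ w, dist w z ≤ r → 5 ≤ (T w).ncard → ∀ y, dist y w = 1 → (T y).ncard ≤ 3) →
      (∀ w, dist w z ≤ r → (T w).ncard ≠ 5) →
      (∀ w, dist w z ≤ r → ∀ a b c d, ¬ DPt T w a b c d) → False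

/-- **disc form, order bound five** -/
theorem disc5 (H : NoFiveLoc) {U : Fin 6 → Set (EuclideanSpace ℝ (Fin 2))}
    (hd : Dense (⋃ i, U i))
    (hU : ∀ i, Maximal (fun W : Set (EuclideanSpace ℝ (Fin 2)) =>
      IsOpen W ∧ ∀ x ∈ W, ∀ y ∈ W, dist x y ≠ 1) (U i)) (c : EuclideanSpace ℝ (Fin 2)) :
    ∃ z, dist z c ≤ 22 ∧ (z ∈ XU U 5 ∨ (z ∈ XU U 4 ∧ ∃ z' ∈ XU U 3, dist z z' = 1) ∨ DU U z) :=
  exists_discU_of (R := 22) (m := 5) (by norm_num) (by norm_num) hU hd
    (fun _ _ c h hmin hm hu => h.disc_core hmin c hu hm fun z _ h5 h3 hD =>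
      H _ _ h hmin z h5 h3 hD) c

/-- **disc form, no order bound** -/
theorem disc6 (H : NoFiveLoc) {r : ℝ} (hr : 0 ≤ r) (H6 : NoSixLoc r)
    {U : Fin 6 → Set (EuclideanSpace ℝ (Fin 2))} (hd : Dense (⋃ i, U i))
    (hU : ∀ i, Maximal (fun W : Set (EuclideanSpace ℝ (Fin 2)) =>
      IsOpen W ∧ ∀ x ∈ W, ∀ y ∈ W, dist x y ≠ 1) (U i)) (c : EuclideanSpace ℝ (Fin 2)) :
    ∃ z, dist z c ≤ 22 + r ∧ ((z ∈ XU U 4 ∧ ∃ z' ∈ XU U 3, dist z z' = 1) ∨ DU U z) := by
  obtain ⟨z, hz, h6 | h⟩ := exists_discU_of (R := 22 + r) (m := 6) (by norm_num) le_rfl hU hd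
    (fun _ _ c h hmin _ hu => h.disc_core6 hmin c hr hu (fun z _ h5 h3 hD =>
      H _ _ h hmin z h5 h3 hD) fun z _ h6 h1 h2 h3 => H6 _ _ h hmin z h6 h1 h2 h3) c
  · exfalso
    have h1 := h6 univ ((Set.ncard_le_card _).trans (by simp))
    have h2 : (⋃ j, U j) \ ⋃ i ∈ (univ : Set (Fin 6)), U i = ∅ := by
      rw [sdiff_eq_empty]
      exact fun x hx => by
        obtain ⟨j, hj⟩ := mem_iUnion.1 hx
        exact mem_iUnion₂.2 ⟨j, mem_univ j, hj⟩
    rw [h2, closure_empty] at h1
    exact h1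
  · exact ⟨z, hz, h⟩

end Vale.Agent.P032.S5.H306
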