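import Vale.Agent.P032.S5.H843.Hand6
import Vale.Agent.P032.S5.H306.DiscCore

/-!
# P032: every disc, no order bound

`disc6a` : in the plane, every closed disc of radius `26` contains a point near which no five of the
sets suffice and which is silent for one index (`Sil`), or a point near which no four suffice with a
point at distance one near which no three suffice, or a point near which no three suffice and which
is a limit of two-pair points; from the local theorems on clean points of five and six colours.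
-/

open Set Filter Topology Metric

noncomputable section

namespace Vale.Agent.P032.S5.H306

open Vale.Agent.P032.Six Vale.Agent.P032.S5.H926 Vale.Agent.P032.S5.H843 Vale.Agent.P032.S5.H138

/-- clean points with six colours, each of which is in a pair of the unit circle, are impossible if
within distance two there are no points with five colours and the two-pair points are clean -/
def NoSixALoc : Prop :=
  ∀ (U : Fin 6 → Set ℂ) (T : ℂ → Set (Fin 6)), Irr U T → Mn U T →
    ∀ z, (T z).ncard = 6 → (∀ y, dist y z = 1 → (T y).ncard ≤ 3) →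
      (∀ w, dist w z ≤ 2 → (T w).ncard ≠ 5) →
      (∀ w, dist w z ≤ 2 → (∃ a b c d, DPt T w a b c d) → ∀ y, dist y w = 1 → (T y).ncard ≤ 3) →
      (∀ i, ∃ q, dist q z = 1 ∧ i ∈ T q ∧ (T q).ncard = 2) → False

/-- the global form from the local form -/
theorem noSixA_of_loc (H : NoSixALoc) : NoSixA := by
  intro U T h hmin hu h5 z h6 hcl hact
  refine H U T h hmin z h6 hcl (fun w _ => h5 w) (fun w _ hD y hy => ?_) hact
  by_contra hcon
  exact hu w y (by rw [dist_comm]; exact hy) (by omega) (Or.inr hD)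

/-- **The frame, disc form with unit pairs**, with prescribed palettes at finitely many points. -/
theorem exists_T_discUVQ {U : Fin 6 → Set ℂ}
    (hU : ∀ i, Maximal (fun W : Set ℂ => IsOpen W ∧ ∀ x ∈ W, ∀ y ∈ W, dist x y ≠ 1) (U i))
    (hd : Dense (⋃ i, U i)) {m : ℕ} (hm : 4 ≤ m) (hm6 : m ≤ 6) {D : Set ℂ} (hD : IsClosed D)
    (h4 : ∀ z ∈ D, z ∉ XU U m)
    (hp : ∀ z ∈ D, z ∈ XU U 4 → ∀ v ∈ XU U 3, dist z v ≠ 1)
    (h3 : ∀ z ∈ D, z ∈ XU U 3 → z ∉ closure {x | DV U x})
    {Q : Set ℂ} (hQ : Q.Finite) {S : ℂ → Set (Fin 6)} (hS : ∀ q ∈ Q, (S q).ncard ≤ 3 ∧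
      q ∉ closure ((⋃ j, U j) \ ⋃ i ∈ S q, U i)) :
    ∃ T, Irr U T ∧ Mn U T ∧ (∀ z ∈ D, (T z).ncard ≤ m) ∧ (∀ q ∈ Q, T q ⊆ S q) ∧
      (∀ z ∈ D, ∀ v, dist z v = 1 → 4 ≤ (T v).ncard → (T z).ncard ≤ 4) ∧
      ∀ z ∈ D, ¬ ∃ a b c d, DPt T z a b c d := by
  classical
  set K : Set ℂ := D ∩ XU U 4 with hK
  obtain ⟨N₅, V₀, hN₅, hV₀, hKN, hXV₀, hfree₀⟩ := exists_open_free₂ (hD.inter (isClosed_XU U 4))
    (isClosed_XU U 3) (fun z hz v hv => hp z hz.1 hz.2 v hv)
  set F : Set ℂ := D ∩ closure {x | DV U x} with hF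
  have hFc : IsClosed F := hD.inter isClosed_closure
  set V : Set ℂ := V₀ ∩ Fᶜ with hVdef
  have hV : IsOpen V := hV₀.inter hFc.isOpen_compl
  have hXV : XU U 3 ⊆ V := fun x hx => ⟨hXV₀ hx, fun h1 => h3 x h1.1 hx h1.2⟩
  have hfree : ∀ z ∈ N₅, ∀ v ∈ V, dist z v ≠ 1 := fun z hz v hv => hfree₀ z hz v hv.1
  set N : ℂ → ℕ := fun x => if x ∈ V then (if x ∈ D then (if x ∈ N₅ then m else 4) else 6) else 3
    with hNdef
  have hNs : ∀ x, ∀ᶠ w in 𝓝 x, N x ≤ N w := by
    intro x
    by_cases hx : x ∈ V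
    · by_cases hxD : x ∈ D
      · by_cases hx5 : x ∈ N₅
        · filter_upwards [hV.mem_nhds hx, hN₅.mem_nhds hx5] with w hw hw5
          simp only [hNdef, if_pos hx, if_pos hxD, if_pos hx5, if_pos hw, if_pos hw5]
          split_ifs <;> omega
        · filter_upwards [hV.mem_nhds hx] with w hw
          simp only [hNdef, if_pos hx, if_pos hxD, if_neg hx5, if_pos hw]
          split_ifs <;> omega
      · filter_upwards [hV.mem_nhds hx, hD.isOpen_compl.mem_nhds hxD] with w hw hwD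
        have hwD' : w ∉ D := hwD
        simp only [hNdef, if_pos hx, if_neg hxD, if_pos hw, if_neg hwD', le_refl]
    · filter_upwards with w
      simp only [hNdef, if_neg hx]
      split_ifs <;> omega
  have hN3 : ∀ x, 3 ≤ N x := by
    intro x
    simp only [hNdef]
    split_ifs <;> omega
  have hex : ∀ n z, z ∉ XU U n → ∃ s : Set (Fin 6), s.ncard ≤ n ∧
      ∀ᶠ w in 𝓝 z, ∃ i ∈ s, w ∈ U i ∨ (w ∈ XX U ∧ i ∈ Pal U w) := by
    intro n z hz
    simp only [XU, mem_ofPred_eq] at hz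
    push Not at hz
    obtain ⟨s, hs, hsz⟩ := hz
    exact ⟨s, hs, suf_of_notMem hd hsz⟩
  obtain ⟨T, hT, hmin, hle, hTQ⟩ := exists_frameQ (Mx_of_maximal hU hd)
    (fun i x hx => (mem_iff_of_maximal (hU i) x).2 hx) hNs hN3 (fun z _ => by
      by_cases hz : z ∈ V
      · by_cases hzD : z ∈ D
        · by_cases hz5 : z ∈ N₅
          · obtain ⟨s, h1, h2⟩ := hex m z (h4 z hzD)
            exact ⟨s, by simpa only [hNdef, if_pos hz, if_pos hzD, if_pos hz5] using h1, h2⟩
          · obtain ⟨s, h1, h2⟩ := hex 4 z fun h => hz5 (hKN ⟨hzD, h⟩)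
            exact ⟨s, by simpa only [hNdef, if_pos hz, if_pos hzD, if_neg hz5] using h1, h2⟩
        · refine ⟨univ, ?_, ?_⟩
          · simp only [hNdef, if_pos hz, if_neg hzD]
            exact (Set.ncard_le_card _).trans (by simp)
          · refine suf_of_notMem hd ?_
            have : (⋃ j, U j) \ ⋃ i ∈ (univ : Set (Fin 6)), U i = ∅ := by
              rw [sdiff_eq_empty]
              exact fun x hx => by
                obtain ⟨j, hj⟩ := mem_iUnion.1 hx
                exact mem_iUnion₂.2 ⟨j, mem_univ j, hj⟩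
            rw [this, closure_empty]
            exact notMem_empty z
      · obtain ⟨s, h1, h2⟩ := hex 3 z fun h => hz (hXV h)
        exact ⟨s, by simpa only [hNdef, if_neg hz] using h1, h2⟩) hQ (S := S)
    (fun q hq => ⟨(hS q hq).1.trans (hN3 q), suf_of_notMem hd (hS q hq).2⟩)
  have hV4 : ∀ v, 4 ≤ (T v).ncard → v ∈ V := by
    intro v hv
    by_contra hcon
    have h1 := hle v
    simp only [hNdef, if_neg hcon] at h1
    omega
  refine ⟨T, hT, hmin, fun z hz => (hle z).trans ?_, hTQ, fun z hz v hzv hv => ?_,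
    fun z hz => ?_⟩
  · simp only [hNdef, if_pos hz]
    split_ifs <;> omega
  · by_contra hcon
    refine hfree z ?_ v (hV4 v hv) hzv
    by_contra hz5
    have h1 := hle z
    simp only [hNdef, if_pos hz, if_neg hz5] at h1
    split_ifs at h1 <;> omega
  · rintro ⟨a, b, c, d, hDz⟩
    exact (hV4 z (ncard_DPt hDz)).2 ⟨hz, subset_closure (DV_of_DPt hT hmin hd hDz)⟩

/-- **Every closed disc of radius `26`.** -/
theorem disc6a (H : NoFiveLoc) (H6 : NoSixALoc) {U : Fin 6 → Set (EuclideanSpace ℝ (Fin 2))}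
    (hd : Dense (⋃ i, U i))
    (hU : ∀ i, Maximal (fun W : Set (EuclideanSpace ℝ (Fin 2)) =>
      IsOpen W ∧ ∀ x ∈ W, ∀ y ∈ W, dist x y ≠ 1) (U i)) (c : EuclideanSpace ℝ (Fin 2)) :
    ∃ z, dist z c ≤ 26 ∧ (Sil U z ∨ (z ∈ XU U 4 ∧ ∃ z' ∈ XU U 3, dist z z' = 1) ∨
      (z ∈ XU U 3 ∧ z ∈ closure {x | DV U x})) := by
  obtain ⟨z₀, hzc, hz₀ | h1 | h1⟩ := exists_discUV_of (R := 22) (m := 5) (by norm_num)
    (by norm_num) hU hd (fun _ _ c h hmin hm hu => h.disc_core hmin c hu hm fun z _ h5 h3 hD =>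
      H _ _ h hmin z h5 h3 hD) c
  rotate_left
  · exact ⟨z₀, by linarith, Or.inr (Or.inl h1)⟩
  · exact ⟨z₀, by linarith, Or.inr (Or.inr h1)⟩
  by_contra hcon
  push Not at hcon
  have hd' : Dense (⋃ i, φ ⁻¹' U i) := by
    rw [← preimage_iUnion]
    exact hd.preimage φ.toHomeomorph.isOpenMap
  obtain ⟨z, rfl⟩ := φ.surjective z₀
  have hφ : ∀ z, dist z (φ.symm c) ≤ 26 → dist (φ z) c ≤ 26 := by
    intro z hz
    rw [← φ.apply_symm_apply c, φ.dist_map]
    exact hz
  have hzc' : dist z (φ.symm c) ≤ 22 := by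
    rw [← φ.apply_symm_apply c, φ.dist_map] at hzc
    exact hzc
  have hzX : z ∈ XU (fun i => φ ⁻¹' U i) 5 := by
    intro s hs
    rw [hdf, hcl]
    exact hz₀ s hs
  have hS : ∀ i : Fin 6, ∃ q j, dist q z = 1 ∧
      q ∉ closure ((⋃ k, φ ⁻¹' U k) \ ⋃ k ∈ ({i, j} : Set (Fin 6)), φ ⁻¹' U k) := by
    intro i
    by_contra hc
    push Not at hc
    refine (hcon (φ z) (by linarith)).1 ⟨hz₀, i, fun q hq j => ?_⟩
    obtain ⟨q, rfl⟩ := φ.surjective q
    rw [φ.dist_map] at hq
    have h1 := hc q j hq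
    rw [hdf, hcl] at h1
    exact h1
  choose q₀ j hq₀ hj using hS
  obtain ⟨q, hqA, hqi⟩ := exists_distinct
    (fun i => {p | dist p z = 1 ∧
      p ∈ (closure ((⋃ k, φ ⁻¹' U k) \ ⋃ k ∈ ({i, j i} : Set (Fin 6)), φ ⁻¹' U k))ᶜ})
    (fun i => infinite_circle (hq₀ i) isClosed_closure.isOpen_compl (hj i))
  set S : ℂ → Set (Fin 6) := fun p => {k | ∃ i, q i = p ∧ (k = i ∨ k = j i)} with hSdef
  have hSq : ∀ i, S (q i) = {i, j i} := by
    intro i
    ext k
    simp only [hSdef, mem_ofPred_eq, mem_insert_iff, mem_singleton_iff]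
    constructor
    · rintro ⟨i', h1, h2⟩
      rw [hqi h1] at h2
      exact h2
    · exact fun h => ⟨i, rfl, h⟩
  have h2 : ∀ i, (S (q i)).ncard ≤ 2 := fun i => by
    rw [hSq]
    exact (Set.ncard_insert_le _ _).trans (by rw [Set.ncard_singleton])
  obtain ⟨T, h, hmin, -, hTQ, hu, hnoD⟩ := exists_T_discUVQ (U := fun i => φ ⁻¹' U i)
    (fun i => maximal_preimage (hU i) φ) hd' (m := 6) (by norm_num) le_rfl
    (D := closedBall (φ.symm c) 26) isClosed_closedBall
    (fun z _ hz => by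
      have h1 := hz univ (by rw [Set.ncard_univ, Nat.card_eq_fintype_card, Fintype.card_fin])
      have h2 : (⋃ j, φ ⁻¹' U j) \ ⋃ i ∈ (univ : Set (Fin 6)), φ ⁻¹' U i = ∅ := by
        rw [sdiff_eq_empty]
        exact fun x hx => by
          obtain ⟨j, hj⟩ := mem_iUnion.1 hx
          exact mem_iUnion₂.2 ⟨j, mem_univ j, hj⟩
      rw [h2, closure_empty] at h1
      exact h1)
    (fun z hz h v hv hzv => (hcon (φ z) (hφ z hz)).2.1 (hXU 4 z h) (φ v) (hXU 3 v hv)
      (by rw [φ.dist_map]; exact hzv))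
    (fun z hz h h' => (hcon (φ z) (hφ z hz)).2.2 (hXU 3 z h) (hcDV z h'))
    (Q := range q) (finite_range q) (S := S) (by
      rintro _ ⟨i, rfl⟩
      refine ⟨(h2 i).trans (by norm_num), ?_⟩
      rw [hSq]
      exact (hqA i).2)
  have h6 := univ_of_XU h hzX
  have hcl3 : ∀ w, dist w (φ.symm c) ≤ 26 → 5 ≤ (T w).ncard → ∀ y, dist y w = 1 →
      (T y).ncard ≤ 3 := by
    intro w hw h5 y hy
    by_contra hc
    have := hu w hw y (by rw [dist_comm]; exact hy) (by omega)
    omega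
  refine H6 _ T h hmin z h6 (hcl3 z (by linarith) (by omega)) (fun w hw h5 => ?_)
    (fun w hw hD => ?_) fun i => ⟨q i, (hqA i).1, ?_⟩
  · have hwc : dist w (φ.symm c) ≤ 24 := by
      have := dist_triangle w z (φ.symm c)
      linarith
    refine H _ T h hmin w h5 (hcl3 w (by linarith) h5.ge) fun w' hw' a b c' d hD =>
      hnoD w' ?_ ⟨a, b, c', d, hD⟩
    rw [mem_closedBall]
    have := dist_triangle w' w (φ.symm c)
    linarith
  · refine absurd hD (hnoD w ?_)
    rw [mem_closedBall]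
    have := dist_triangle w z (φ.symm c)
    linarith
  · have h3 := hTQ (q i) ⟨i, rfl⟩
    have h4 := two_le6 h h6 (hqA i).1
    have h5 := h2 i
    have h7 : T (q i) = S (q i) := Set.eq_of_subset_of_ncard_le h3 (by omega) (Set.toFinite _)
    have h8 := Set.ncard_le_ncard h3 (Set.toFinite _)
    refine ⟨?_, by omega⟩
    rw [h7, hSq]
    exact mem_insert _ _

end Vale.Agent.P032.S5.H306
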