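import Vale.Agent.P032.S5.H306.Final6b

/-!
# P032: every disc, no order bound, no silent colours
-/

open Set Filter Topology Metric

namespace Vale.Agent.P032.S5.H306

open Vale.Agent.P032.S5.H138 Vale.Agent.P032.Six Vale.Agent.P032.S5.H843

/-- on a clean unit circle about a point with six colours every colour is in a pair -/
def NoSilentLoc : Prop :=
  ∀ (U : Fin 6 → Set ℂ) (T : ℂ → Set (Fin 6)), Irr U T → Mn U T →
    ∀ z, (T z).ncard = 6 → (∀ y, dist y z = 1 → (T y).ncard ≤ 3) →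
      (∀ w, dist w z ≤ 2 → (T w).ncard ≠ 5) →
      (∀ w, dist w z ≤ 2 → (∃ a b c d, DPt T w a b c d) → ∀ y, dist y w = 1 → (T y).ncard ≤ 3) →
      ∀ i, ∃ q, dist q z = 1 ∧ i ∈ T q ∧ (T q).ncard = 2

/-- **Every closed disc of radius `24`**, without silent colours. -/
theorem disc6s (H : NoFiveLoc) (H6 : NoSixALoc) (Hs : NoSilentLoc)
    {U : Fin 6 → Set (EuclideanSpace ℝ (Fin 2))}
    (hd : Dense (⋃ i, U i))
    (hU : ∀ i, Maximal (fun W : Set (EuclideanSpace ℝ (Fin 2)) =>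
      IsOpen W ∧ ∀ x ∈ W, ∀ y ∈ W, dist x y ≠ 1) (U i)) (c : EuclideanSpace ℝ (Fin 2)) :
    ∃ z, dist z c ≤ 24 ∧ ((z ∈ XU U 4 ∧ ∃ z' ∈ XU U 3, dist z z' = 1) ∨
      (z ∈ XU U 3 ∧ z ∈ closure {x | DV U x})) := by
  obtain ⟨z, hz, h6 | h⟩ := exists_discUV_of (R := 24) (m := 6) (by norm_num) le_rfl hU hd
    (fun U' T c h hmin _ hu => by
      obtain ⟨z, hz, hD⟩ := h.disc_core6 hmin c (r := 2) (by norm_num)
        (fun z hz => hu z (by linarith))
        (fun z _ h5 h3 hD => H _ _ h hmin z h5 h3 hD) fun z hz h6 h1 h2 h3 => by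
          have hcl := h1 z (by simp) (by omega)
          have hD : ∀ w, dist w z ≤ 2 → (∃ a b c d, DPt T w a b c d) →
              ∀ y, dist y w = 1 → (T y).ncard ≤ 3 :=
            fun w hw ⟨a, b, c, d, hDw⟩ => absurd hDw (h3 w hw a b c d)
          exact H6 _ T h hmin z h6 hcl h2 hD (Hs _ T h hmin z h6 hcl h2 hD)
      exact ⟨z, by linarith, hD⟩) c
  · exfalso
    have h1 := h6 univ (by rw [Set.ncard_univ, Nat.card_eq_fintype_card, Fintype.card_fin])
    have h2 : (⋃ j, U j) \ ⋃ i ∈ (univ : Set (Fin 6)), U i = ∅ := by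
      rw [sdiff_eq_empty]
      exact fun x hx => by
        obtain ⟨j, hj⟩ := mem_iUnion.1 hx
        exact mem_iUnion₂.2 ⟨j, mem_univ j, hj⟩
    rw [h2, closure_empty] at h1
    exact h1
  · exact ⟨z, hz, h⟩

end Vale.Agent.P032.S5.H306
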