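import Vale.Agent.P032.S5.H306.DiscU
import Vale.Agent.P032.S5.H11.XC

/-!
# P032: every disc of radius twenty, no hypothesis

A maximal family of six open sets of the plane without unit distance and with dense union: every
disc of radius twenty contains a point near which no four of the sets suffice, or a two-pair point.
-/

open Set Filter Topology Metric

noncomputable section

namespace Vale.Agent.P032.S5.H306

open Vale.Agent.P032.Six Vale.Agent.P032.S5.H843 Vale.Agent.P032.S5.H926 Vale.Agent.P032.Carr

/-- **Every disc of radius twenty.** -/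
theorem exists_disc {U : Fin 6 → Set (EuclideanSpace ℝ (Fin 2))}
    (hU : ∀ i, Maximal (fun W : Set (EuclideanSpace ℝ (Fin 2)) =>
      IsOpen W ∧ ∀ x ∈ W, ∀ y ∈ W, dist x y ≠ 1) (U i))
    (hd : Dense (⋃ i, U i)) (c : EuclideanSpace ℝ (Fin 2)) :
    ∃ z, dist z c ≤ 20 ∧ (z ∈ XU U 4 ∨ DU U z) :=
  exists_disc_of (fun _ _ _ _ _ _ _ G hmin H => G.ringIn hmin H) hU hd c

end Vale.Agent.P032.S5.H306
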