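import Vale.Agent.P032.S5.H306.Disc
import Vale.Agent.P032.S5.H843.PairD
import Vale.Agent.P032.S5.H11.CarrV
import Vale.Agent.P032.S5.H825.End

/-!
# P032: every disc of radius twenty

`exists_disc_of` : maximal family of six open sets without unit distance, dense union: every disc
of radius twenty contains a point near which no four of the sets suffice, or a two-pair point.  The
only hypothesis is the theorem on rings (`RingIn`).
-/

open Set Filter Topology Metric

noncomputable section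

namespace Vale.Agent.P032.Six

open Vale.Agent.P032.S5 Vale.Agent.P032.Carr

/-- at most four colours in the disc of radius twenty: a `D`-point -/
theorem Irr.exists_D_disc306
    (HR : ∀ (U : Fin 6 → Set ℂ) (T : ℂ → Set (Fin 6)) (Z : Set ℂ) (f : ℂ → Set (Fin 6)) (c : ℂ)
      (R δ₀ : ℝ), RegS U T f Z c R → MinF U T → Hm T Z f δ₀ → RingIn T Z f c R)
    {U : Fin 6 → Set ℂ} {T : ℂ → Set (Fin 6)} (h : Irr U T) (hmin : Mn U T) (c : ℂ)
    (h4 : ∀ x, dist x c ≤ 20 → (T x).ncard ≤ 4) :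
    ∃ z a b e d, dist z c ≤ 19 ∧ DPt T z a b e d := by
  by_contra hcon
  push Not at hcon
  have hmin' : MinF U T := fun z h4 s hs hne => hmin z h4 s hs hne
  have hH : ∀ x, dist x c ≤ 19 → 4 ≤ (T x).ncard → ∃ A, Six.Harm T x A := by
    intro x hx hx4
    have hx4' : (T x).ncard = 4 := le_antisymm (h4 x (by linarith)) hx4
    refine h.harm_of_noD hmin hx4' (h.exists_inside hx4' fun y hy => h4 y ?_)
      fun a b e d hD => hcon x a b e d hx hD
    have := dist_triangle y x c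
    linarith
  exact h.carrU_of (fun U T Z f c R δ₀ G hm H => G.inU_of hm H (HR U T Z f c R δ₀ G hm H)) hmin' c
    (fun z hz => hH z (by linarith))
    (fun z z' A A' hz _ hA hA' hd => h.noStar_disc hmin' hH (by linarith) hA hA' hd)

end Vale.Agent.P032.Six

namespace Vale.Agent.P032.S5.H306

open Vale.Agent.P032.Six Vale.Agent.P032.S5.H843 Vale.Agent.P032.S5.H926 Vale.Agent.P032.Carr

/-- **Every disc of radius twenty**, complex form. -/
theorem exists_disc_complex
    (HR : ∀ (U : Fin 6 → Set ℂ) (T : ℂ → Set (Fin 6)) (Z : Set ℂ) (f : ℂ → Set (Fin 6)) (c : ℂ)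
      (R δ₀ : ℝ), RegS U T f Z c R → MinF U T → Hm T Z f δ₀ → RingIn T Z f c R)
    {U : Fin 6 → Set ℂ}
    (hU : ∀ i, Maximal (fun W : Set ℂ => IsOpen W ∧ ∀ x ∈ W, ∀ y ∈ W, dist x y ≠ 1) (U i))
    (hd : Dense (⋃ i, U i)) (c : ℂ) : ∃ z, dist z c ≤ 20 ∧ (z ∈ XU U 4 ∨ DU U z) := by
  classical
  by_contra hcon
  push Not at hcon
  set N : ℂ → ℕ := fun x => if dist x c ≤ 20 then 4 else 6 with hNdef
  have hNs : ∀ x, ∀ᶠ w in 𝓝 x, N x ≤ N w := by
    intro x
    by_cases hx : dist x c ≤ 20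
    · filter_upwards with w
      simp only [hNdef, if_pos hx]
      split_ifs <;> omega
    · have hc : ∀ᶠ w in 𝓝 x, 20 < dist w c :=
        (continuous_id.dist continuous_const).continuousAt.eventually
          (Ioi_mem_nhds (not_le.1 hx))
      filter_upwards [hc] with w hw
      simp only [hNdef, if_neg hx, if_neg (not_le.2 hw), le_refl]
  have hN3 : ∀ x, 3 ≤ N x := by
    intro x
    simp only [hNdef]
    split_ifs <;> omega
  obtain ⟨T, hT, hmin, hle⟩ := exists_frameN (Mx_of_maximal hU hd)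
    (fun i x hx => (mem_iff_of_maximal (hU i) x).2 hx) hNs hN3 (fun z _ => by
      by_cases hz : dist z c ≤ 20
      · have h1 := (hcon z hz).1
        simp only [XU, mem_ofPred_eq] at h1
        push Not at h1
        obtain ⟨s, hs, hsz⟩ := h1
        exact ⟨s, by simpa only [hNdef, if_pos hz] using hs, suf_of_notMem hd hsz⟩
      · refine ⟨univ, ?_, suf_of_notMem hd ?_⟩
        · simp only [hNdef, if_neg hz]
          rw [Set.ncard_univ, Nat.card_eq_fintype_card, Fintype.card_fin]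
        · have h1 : ((⋃ j, U j) \ ⋃ i ∈ (univ : Set (Fin 6)), U i) = ∅ := by
            rw [sdiff_eq_empty]
            intro x hx
            obtain ⟨j, hj⟩ := mem_iUnion.1 hx
            exact mem_iUnion₂.2 ⟨j, mem_univ j, hj⟩
          rw [h1, closure_empty]
          exact notMem_empty z)
  obtain ⟨z, a, b, e, d, hz, hD⟩ := hT.exists_D_disc306 HR hmin c fun x hx => by
    have h1 := hle x
    simpa only [hNdef, if_pos hx] using h1
  exact (hcon z (by linarith)).2 (DU_of_DPt hT hmin hd hD)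

/-- **Every disc of radius twenty**, in the plane. -/
theorem exists_disc_of
    (HR : ∀ (U : Fin 6 → Set ℂ) (T : ℂ → Set (Fin 6)) (Z : Set ℂ) (f : ℂ → Set (Fin 6)) (c : ℂ)
      (R δ₀ : ℝ), RegS U T f Z c R → MinF U T → Hm T Z f δ₀ → RingIn T Z f c R)
    {U : Fin 6 → Set (EuclideanSpace ℝ (Fin 2))}
    (hU : ∀ i, Maximal (fun W : Set (EuclideanSpace ℝ (Fin 2)) =>
      IsOpen W ∧ ∀ x ∈ W, ∀ y ∈ W, dist x y ≠ 1) (U i))
    (hd : Dense (⋃ i, U i)) (c : EuclideanSpace ℝ (Fin 2)) :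
    ∃ z, dist z c ≤ 20 ∧ (z ∈ XU U 4 ∨ DU U z) := by
  let φ : ℂ ≃ₗᵢ[ℝ] EuclideanSpace ℝ (Fin 2) := Complex.orthonormalBasisOneI.repr
  have hcl : ∀ S : Set (EuclideanSpace ℝ (Fin 2)), closure (φ ⁻¹' S) = φ ⁻¹' closure S :=
    fun S => (φ.toHomeomorph.preimage_closure S).symm
  have hdf : ∀ s : Set (Fin 6), ((⋃ j, φ ⁻¹' U j) \ ⋃ i ∈ s, φ ⁻¹' U i) =
      φ ⁻¹' ((⋃ j, U j) \ ⋃ i ∈ s, U i) := by
    intro s
    rw [preimage_sdiff, preimage_iUnion, preimage_iUnion₂]
  have hX : ∀ n z, z ∈ XU (fun i => φ ⁻¹' U i) n → φ z ∈ XU U n := by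
    intro n z hz s hs
    have h1 := hz s hs
    rw [hdf, hcl] at h1
    exact h1
  have hDU : ∀ x, DU (fun i => φ ⁻¹' U i) x → DU U (φ x) := by
    rintro x ⟨a, b, c, d, nd, hx, hs, p, q, hp, hq, h1, h2, h3, h4, h5, h6⟩
    rw [hdf, hcl] at hx h3 h6
    rw [hcl] at h1 h2 h4 h5
    refine ⟨a, b, c, d, nd, hx, fun s hs' => ?_, φ p, φ q, by rw [φ.dist_map]; exact hp,
      by rw [φ.dist_map]; exact hq, h1, h2, h3, h4, h5, h6⟩
    have h7 := hs s hs'
    rw [hdf, hcl] at h7
    exact h7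
  obtain ⟨z, hz1, hz2⟩ := exists_disc_complex HR (U := fun i => φ ⁻¹' U i)
    (fun i => maximal_preimage (hU i) φ) (by
      rw [← preimage_iUnion]
      exact hd.preimage φ.toHomeomorph.isOpenMap) (φ.symm c)
  refine ⟨φ z, ?_, hz2.imp (hX 4 z) (hDU z)⟩
  have e : φ (φ.symm c) = c := φ.apply_symm_apply c
  rw [← e, φ.dist_map]
  exact hz1

end Vale.Agent.P032.S5.H306
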