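import Vale.Agent.P032.S5.H306.Defs

/-!
# P032: the ends of the arcs of a D-star pair

`DP.dirEq306` : the same directions at `z` and `y`.  `DP.ends306` : an end `v = z + ξ`, in pointwise form
(the hypotheses `at most four colours` and `harmless` only at `z + ξ`, `y + ξ`).
-/

open Set Filter Topology Metric

noncomputable section

namespace Vale.Agent.P032.Six

variable {U : Fin 6 → Set ℂ} {T : ℂ → Set (Fin 6)}

theorem pair_of306 {S : Set (Fin 6)} (hS : S.ncard = 2) {i : Fin 6} (hi : i ∈ S) :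
    ∃ j ∈ S, j ≠ i ∧ S = {i, j} := by
  obtain ⟨j, hj, hji⟩ : ∃ j ∈ S, j ≠ i := by
    by_contra hcon
    push Not at hcon
    have := Set.ncard_le_ncard (show S ⊆ {i} from fun m hm => hcon m hm) (Set.toFinite _)
    rw [hS, Set.ncard_singleton] at this
    omega
  refine ⟨j, hj, hji, (Set.eq_of_subset_of_ncard_le (s := {i, j}) ?_ ?_ (Set.toFinite _)).symm⟩
  · rintro m (rfl | rfl)
    · exact hi
    · exact hj
  · rw [hS, Set.ncard_pair (Ne.symm hji)]

/-- a partner off the line, at a harmless point -/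
theorem Harm.wp306 (h : Irr U T) {u p x : ℂ} {t : Fin 6} {A' : Set (Fin 6)} (hu : Harm T u A')
    (hpu : dist p u = 1) (hpx : dist p x = 1) (hne : x ≠ u) (hne2 : x + u ≠ 2 * p)
    (htx : t ∈ T x) (hsub : ∀ i ∈ T p, i ≠ t → i ∈ T u) : ∀ i ∈ A', i ∈ T p ∧ i ≠ t := by
  have hf : ∃ᶠ q in 𝓝[sphere u 1] p, t ∉ T q := by
    intro hcon
    rcases h.mx.partner_line hpu (hcon.mono fun q hq => h.sub q (not_not.1 hq)) hpx
      (h.sub x htx) with h1 | h1
    · exact hne h1
    · exact hne2 h1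
  have e1 : ∀ᶠ q in 𝓝[sphere u 1] p, T q ⊆ T p := mem_nhdsWithin_of_mem_nhds (h.nhd p)
  have e2 : ∀ᶠ q in 𝓝[sphere u 1] p, dist q u = 1 := self_mem_nhdsWithin
  obtain ⟨q, hq, hq1, hq2⟩ := (hf.and_eventually (e1.and e2)).exists
  have h1 : A' ⊆ T q := hu.h1 q hq2 fun i hi => hsub i (hq1 hi) fun h2 => hq (h2 ▸ hi)
  exact fun i hi => ⟨hq1 (h1 hi), fun h2 => hq (h2 ▸ h1 hi)⟩

namespace DP

variable {z y : ℂ} {A B : Set (Fin 6)}

theorem dir_sub306 (h : Irr U T) (P : DP T z y A B) {ξ : ℂ} (hξ : ‖ξ‖ = 1)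
    (hsub : T (z + ξ) ⊆ T z) (hne : ξ ≠ z - y) (hne' : ξ ≠ y - z) : T (y + ξ) ⊆ T y := by
  intro i hi
  rw [P.cy]
  intro hiA
  have hvz : dist (z + ξ) z = 1 := by rw [dist_eq_norm, add_sub_cancel_left]; exact hξ
  have hJ : ∀ᶠ q in 𝓝[sphere z 1] (z + ξ), i ∈ Pal U q := by
    filter_upwards [mem_nhdsWithin_of_mem_nhds (h.nhd (z + ξ)), self_mem_nhdsWithin]
      with q hq1 hq2
    exact h.sub q (P.hz.h1 q hq2 (hq1.trans hsub) hiA)
  rcases h.mx.partner_line (v := y + ξ) hvz hJ (by rw [dist_add_right]; exact P.d)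
    (h.sub _ hi) with h1 | h1
  · exact hne (by linear_combination h1)
  · exact hne' (by linear_combination -h1)

theorem memA306 (P : DP T z y A B) (h : Irr U T) {ξ : ℂ} (hcl : ξ ∈ closure (Dir T z)) :
    A ⊆ T (z + ξ) := by
  intro i hi
  have hc : IsClosed {ξ : ℂ | i ∈ T (z + ξ)} :=
    (h.closed i).preimage (continuous_const.add continuous_id)
  refine closure_minimal (fun ξ' hξ' => ?_) hc hcl
  exact P.hz.h1 (z + ξ') (by rw [dist_eq_norm, add_sub_cancel_left]; exact hξ'.1) hξ'.2 hi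

theorem memB306 (P : DP T z y A B) (h : Irr U T) {ξ : ℂ} (hcl : ξ ∈ closure (Dir T z)) :
    B ⊆ T (y + ξ) := by
  intro i hi
  have hc : IsClosed {ξ : ℂ | i ∈ T (y + ξ)} :=
    (h.closed i).preimage (continuous_const.add continuous_id)
  refine closure_minimal (fun ξ1 hξ1 => ?_) hc hcl
  have hp : dist (z + ξ1) z = 1 := by rw [dist_eq_norm, add_sub_cancel_left]; exact hξ1.1
  have hp' : z + ξ1 ∈ sphere z 1 := hp
  by_contra hcon
  have hN : {q : ℂ | i ∉ T (y + (q - z))} ∈ 𝓝 (z + ξ1) := by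
    have hcl2 : IsClosed {q : ℂ | i ∈ T (y + (q - z))} :=
      (h.closed i).preimage (continuous_const.add (continuous_id.sub continuous_const))
    refine hcl2.isOpen_compl.mem_nhds ?_
    show ¬ i ∈ T (y + (z + ξ1 - z))
    rw [add_sub_cancel_left]; exact hcon
  have hs : {q : ℂ | i ∉ T (y + (q - z)) ∧ T q ⊆ T z} ∈ 𝓝[sphere z 1] (z + ξ1) :=
    mem_nhdsWithin_of_mem_nhds (Filter.inter_mem hN ((h.nhd (z + ξ1)).mono
      fun q hq => hq.trans hξ1.2))
  obtain ⟨q, ⟨hq1, hq2⟩, hqz, hqy, hqy2, -⟩ := exists_generic (y := y) hp hs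
  have hn : ‖q - z‖ = 1 := by rw [← dist_eq_norm]; exact hqz
  have h1 := P.dir_sub306 h hn (by rw [add_sub_cancel]; exact hq2)
    (fun h2 => hqy2 (by linear_combination h2)) (fun h2 => hqy (by linear_combination h2))
  exact hq1 (P.hy.h1 _ (by rw [dist_eq_norm, add_sub_cancel_left]; exact hn) h1 hi)

theorem nonA306 (P : DP T z y A B) : A.Nonempty := by
  rw [← Set.ncard_pos (Set.toFinite _), P.hz.cardA]; norm_num

theorem notAxis306 (P : DP T z y A B) (h : Irr U T) :
    z - y ∉ closure (Dir T z) ∧ y - z ∉ closure (Dir T z) := by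
  constructor
  · intro hcl
    obtain ⟨i, hi⟩ := P.symm.nonA306
    have h1 := P.memB306 h hcl hi
    rw [add_sub_cancel, P.cz] at h1
    exact h1 hi
  · intro hcl
    obtain ⟨i, hi⟩ := P.nonA306
    have h1 := P.memA306 h hcl hi
    rw [add_sub_cancel, P.cy] at h1
    exact h1 hi

theorem dirSub306 (P : DP T z y A B) (h : Irr U T) : Dir T z ⊆ Dir T y := by
  intro ξ hξ
  have hcl : ξ ∈ closure (Dir T z) := subset_closure hξ
  exact ⟨hξ.1, P.dir_sub306 h hξ.1 hξ.2 (fun h1 => (P.notAxis306 h).1 (h1 ▸ hcl))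
    (fun h1 => (P.notAxis306 h).2 (h1 ▸ hcl))⟩

theorem dirEq306 (P : DP T z y A B) (h : Irr U T) : Dir T z = Dir T y :=
  Subset.antisymm (P.dirSub306 h) (P.symm.dirSub306 h)

/-- the broken pair of an end is not `A` -/
theorem ne_A306 (P : DP T z y A B) (h : Irr U T) {ξ : ℂ} (hcl : ξ ∈ closure (Dir T z)) {x : Fin 6}
    (hx : x ∈ T (z + ξ)) (hxz : x ∉ T z) {A' : Set (Fin 6)} (hv : Harm T (z + ξ) A') :
    ¬ A' ⊆ A := by
  intro hsub
  have hAA : A' = A :=
    Set.eq_of_subset_of_ncard_le hsub (by rw [hv.cardA, P.hz.cardA]) (Set.toFinite _)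
  have h1 := hv.layerE h
  rw [hAA] at h1
  have hc : ContinuousAt (fun ξ' : ℂ => z + ξ') ξ :=
    (continuous_const.add continuous_id).continuousAt
  have h2 := hc.eventually h1
  obtain ⟨ξ', hξ', hξ''⟩ := (mem_closure_iff_frequently.1 hcl).and_eventually h2 |>.exists
  have h3 := hξ'' (P.hz.h1 (z + ξ') (by rw [dist_eq_norm, add_sub_cancel_left]; exact hξ'.1)
    hξ'.2)
  rw [← h3] at hx
  exact hxz (hξ'.2 hx)

/-- one half: the palette of the other end is not inside `A ∪ B` -/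
theorem end_aux306 (P : DP T z y A B) (h : Irr U T) {ξ : ℂ} (hξ : ‖ξ‖ = 1)
    (hcl : ξ ∈ closure (Dir T z)) (hn : ¬ T (z + ξ) ⊆ T z) (hv4 : (T (z + ξ)).ncard ≤ 4)
    (hw4 : (T (y + ξ)).ncard ≤ 4)
    (hHv : (T (z + ξ)).ncard = 4 → ∃ A', Harm T (z + ξ) A')
    (hHw : (T (y + ξ)).ncard = 4 → ∃ B', Harm T (y + ξ) B') :
    ∃ s' ∈ T (y + ξ), s' ∈ T y \ B := by
  by_contra hcon
  push Not at hcon
  have hne : ξ ≠ z - y := fun h1 => (P.notAxis306 h).1 (h1 ▸ hcl)
  have hne' : ξ ≠ y - z := fun h1 => (P.notAxis306 h).2 (h1 ▸ hcl)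
  have hAv := P.memA306 h hcl
  have hBw := P.memB306 h hcl
  have hcl' : ξ ∈ closure (Dir T y) := by rw [← P.dirEq306 h]; exact hcl
  have hAB := P.disj
  obtain ⟨x, hxv, hxz⟩ := Set.not_subset.1 hn
  have hxB : x ∈ B := by
    by_contra h1
    exact hxz (by rw [P.cz]; exact h1)
  have hnw : ¬ T (y + ξ) ⊆ T y := fun h1 => by
    have : ξ ∈ Dir T y := ⟨hξ, h1⟩
    rw [← P.dirEq306 h] at this
    exact hn this.2
  obtain ⟨t, htw, hty⟩ := Set.not_subset.1 hnw
  have htA : t ∈ A := by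
    by_contra h1
    exact hty (by rw [P.cy]; exact h1)
  obtain ⟨x', hx'B, hx'x, hB2⟩ := pair_of306 P.hy.cardA hxB
  obtain ⟨t', ht'A, ht't, hA2⟩ := pair_of306 P.hz.cardA htA
  -- the palette of `w`
  have hwAB : ∀ i ∈ T (y + ξ), i ∈ A ∨ i ∈ B := by
    intro i hi
    by_contra h1
    rw [not_or] at h1
    refine hcon i hi ⟨?_, h1.2⟩
    rw [P.cy]; exact h1.1
  set v := z + ξ with hvdef
  set w := y + ξ with hwdef
  have hdvz : dist v z = 1 := by rw [hvdef, dist_eq_norm, add_sub_cancel_left]; exact hξ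
  have hdwy : dist w y = 1 := by rw [hwdef, dist_eq_norm, add_sub_cancel_left]; exact hξ
  have hdwv : dist w v = 1 := by rw [hvdef, hwdef, dist_add_right, dist_comm]; exact P.d
  have hyv : y ≠ v := fun h1 => hne' (by rw [hvdef] at h1; linear_combination -h1)
  have hyv2 : y + v ≠ 2 * w := fun h1 => hne (by
    rw [hvdef, hwdef] at h1; linear_combination -h1)
  have hzw : z ≠ w := fun h1 => hne (by rw [hwdef] at h1; linear_combination -h1)
  have hzw2 : z + w ≠ 2 * v := fun h1 => hne' (by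
    rw [hvdef, hwdef] at h1; linear_combination -h1)
  have hyvz : y + v ≠ 2 * z := fun h1 => hne (by rw [hvdef] at h1; linear_combination h1)
  have hxA : x ∉ A := fun h1 => Set.disjoint_left.1 hAB h1 hxB
  by_cases hv3 : (T v).ncard ≤ 3
  · -- clean end
    have hTv : T v = insert x A := by
      refine (Set.eq_of_subset_of_ncard_le (insert_subset hxv hAv) ?_ (Set.toFinite _)).symm
      rw [Set.ncard_insert_of_notMem hxA (Set.toFinite _), P.hz.cardA]; exact hv3
    rcases h.lemmaX (u := v) (p := w) (v := y) (t := x') hdwv hv3 (fun i hi => by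
      rcases hwAB i hi with h1 | h1
      · right; rw [hTv]; exact Or.inr h1
      · rw [hB2] at h1
        rcases h1 with h1 | h1
        · right; rw [hTv]; exact Or.inl h1
        · exact Or.inl h1) hdwy (h.sub y (P.hy.sub hx'B)) with h1 | h1
    · exact hyv h1
    · exact hyv2 h1
  · have hv4' : (T v).ncard = 4 := by omega
    obtain ⟨A', hA'⟩ := hHv hv4'
    by_cases hvAB : ∀ i ∈ T v, i ∈ A ∨ i ∈ B
    · -- `T v = A ∪ B`
      have hc4 : (A ∪ B).ncard = 4 := by
        rw [Set.ncard_union_eq hAB (Set.toFinite _) (Set.toFinite _), P.hz.cardA, P.hy.cardA]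
      have hTv : T v = A ∪ B := Set.eq_of_subset_of_ncard_le (fun i hi => hvAB i hi)
        (by rw [hc4, hv4']) (Set.toFinite _)
      by_cases hw3 : (T w).ncard ≤ 3
      · have htB : t ∉ B := fun h1 => Set.disjoint_left.1 hAB htA h1
        have hTw : T w = insert t B := by
          refine (Set.eq_of_subset_of_ncard_le (insert_subset htw hBw) ?_ (Set.toFinite _)).symm
          rw [Set.ncard_insert_of_notMem htB (Set.toFinite _), P.hy.cardA]; exact hw3
        rcases h.lemmaX (u := w) (p := v) (v := z) (t := t') (by rw [dist_comm]; exact hdwv) hw3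
          (fun i hi => by
            rcases hvAB i hi with h1 | h1
            · rw [hA2] at h1
              rcases h1 with h1 | h1
              · right; rw [hTw]; exact Or.inl h1
              · exact Or.inl h1
            · right; rw [hTw]; exact Or.inr h1) hdvz (h.sub z (P.hz.sub ht'A)) with h1 | h1
        · exact hzw h1
        · exact hzw2 h1
      · have hw4' : (T w).ncard = 4 := by omega
        obtain ⟨B', hB'⟩ := hHw hw4'
        have hTw : T w = A ∪ B := Set.eq_of_subset_of_ncard_le (fun i hi => hwAB i hi)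
          (by rw [hc4, hw4']) (Set.toFinite _)
        have key : ∀ j ∈ A, ∀ i ∈ B', i ≠ j := by
          intro j hj i hi
          exact (hB'.wp306 h (p := v) (x := z) (t := j) (by rw [dist_comm]; exact hdwv) hdvz hzw
            hzw2 (P.hz.sub hj) (fun i hi _ => by rw [hTw]; rw [hTv] at hi; exact hi) i hi).2
        refine P.symm.ne_A306 h hcl' htw hty hB' fun i hi => ?_
        have h1 := hB'.sub hi
        rw [hTw] at h1
        rcases h1 with h1 | h1
        · exact absurd rfl (key i h1 i hi)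
        · exact h1
    · -- a common colour at `v`
      push Not at hvAB
      obtain ⟨r, hrv, hrA, hrB⟩ := hvAB
      have hrz : r ∈ T z \ A := ⟨by rw [P.cz]; exact hrB, hrA⟩
      obtain ⟨r', hr', hr'r, hC2⟩ := pair_of306 P.hz.cardC hrz
      have h1 := hA'.wp306 h (p := w) (x := y) (t := x') hdwv hdwy hyv hyv2 (P.hy.sub hx'B)
        (fun i hi hix => by
          rcases hwAB i hi with h2 | h2
          · exact hAv h2
          · rw [hB2] at h2
            rcases h2 with h2 | h2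
            · rw [h2]; exact hxv
            · exact absurd h2 hix)
      have hr'y : r' ∈ T y := by
        have : r' ∈ T y \ B := P.hC ▸ hr'
        exact this.1
      have h2 := hA'.wp306 h (p := z) (x := y) (t := r') (by rw [dist_comm]; exact hdvz) P.d hyv
        hyvz hr'y (fun i hi hir => by
          by_cases hiA : i ∈ A
          · exact hAv hiA
          · have h3 : i ∈ T z \ A := ⟨hi, hiA⟩
            rw [hC2] at h3
            rcases h3 with h3 | h3
            · rw [h3]; exact hrv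
            · exact absurd h3 hir)
      refine P.ne_A306 h hcl hxv hxz hA' fun i hi => ?_
      rcases hwAB i (h1 i hi).1 with h3 | h3
      · exact h3
      · exfalso
        have h4 := (h2 i hi).1
        rw [P.cz] at h4
        exact h4 h3

/-- **Ends**, pointwise form. -/
theorem ends306 (P : DP T z y A B) (h : Irr U T) {ξ : ℂ} (hξ : ‖ξ‖ = 1)
    (hcl : ξ ∈ closure (Dir T z)) (hn : ¬ T (z + ξ) ⊆ T z) (hv4 : (T (z + ξ)).ncard ≤ 4)
    (hw4 : (T (y + ξ)).ncard ≤ 4)
    (hHv : (T (z + ξ)).ncard = 4 → ∃ A', Harm T (z + ξ) A')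
    (hHw : (T (y + ξ)).ncard = 4 → ∃ B', Harm T (y + ξ) B') :
    ∃ s ∈ T z \ A, ∃ x ∈ B, T (z + ξ) = A ∪ {s, x} ∧
      ∃ A', Harm T (z + ξ) A' ∧ s ∈ A' ∧ A' ⊆ insert s A := by
  have hne : ξ ≠ z - y := fun h1 => (P.notAxis306 h).1 (h1 ▸ hcl)
  have hne' : ξ ≠ y - z := fun h1 => (P.notAxis306 h).2 (h1 ▸ hcl)
  have hAv := P.memA306 h hcl
  have hcl' : ξ ∈ closure (Dir T y) := by rw [← P.dirEq306 h]; exact hcl
  have hnw : ¬ T (y + ξ) ⊆ T y := fun h1 => by
    have : ξ ∈ Dir T y := ⟨hξ, h1⟩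
    rw [← P.dirEq306 h] at this
    exact hn this.2
  obtain ⟨s, hsv, hs⟩ := P.symm.end_aux306 h hξ hcl' hnw hw4 hv4 hHw hHv
  obtain ⟨x, hxv, hxz⟩ := Set.not_subset.1 hn
  have hxB : x ∈ B := by
    by_contra h1
    exact hxz (by rw [P.cz]; exact h1)
  have hxA : x ∉ A := fun h1 => Set.disjoint_left.1 P.disj h1 hxB
  have hsx : s ≠ x := fun h1 => hxz (h1 ▸ hs.1)
  have hc : (A ∪ {s, x}).ncard = 4 := by
    rw [Set.ncard_union_eq ?_ (Set.toFinite _) (Set.toFinite _), P.hz.cardA, Set.ncard_pair hsx]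
    rw [Set.disjoint_left]
    rintro i hi (rfl | h1)
    · exact hs.2 hi
    · rw [mem_singleton_iff] at h1
      exact hxA (h1 ▸ hi)
  have hTv : T (z + ξ) = A ∪ {s, x} := by
    refine (Set.eq_of_subset_of_ncard_le ?_ (by rw [hc]; exact hv4) (Set.toFinite _)).symm
    rintro i (hi | rfl | hi)
    · exact hAv hi
    · exact hsv
    · rw [mem_singleton_iff] at hi
      rw [hi]; exact hxv
  obtain ⟨A', hA'⟩ := hHv (by rw [hTv]; exact hc)
  obtain ⟨s', hs', hs's, hC2⟩ := pair_of306 P.hz.cardC hs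
  have hs'y : s' ∈ T y := by
    have : s' ∈ T y \ B := P.hC ▸ hs'
    exact this.1
  have hdvz : dist (z + ξ) z = 1 := by rw [dist_eq_norm, add_sub_cancel_left]; exact hξ
  have h2 := hA'.wp306 h (p := z) (x := y) (t := s') (by rw [dist_comm]; exact hdvz) P.d
    (fun h1 => hne' (by linear_combination -h1)) (fun h1 => hne (by linear_combination h1)) hs'y
    (fun i hi hir => by
      by_cases hiA : i ∈ A
      · exact hAv hiA
      · have h3 : i ∈ T z \ A := ⟨hi, hiA⟩
        rw [hC2] at h3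
        rcases h3 with h3 | h3
        · rw [h3]; exact hsv
        · exact absurd h3 hir)
  have hsub : A' ⊆ insert s A := by
    intro i hi
    obtain ⟨h3, h4⟩ := h2 i hi
    by_cases hiA : i ∈ A
    · exact Or.inr hiA
    · have h5 : i ∈ T z \ A := ⟨h3, hiA⟩
      rw [hC2] at h5
      rcases h5 with h5 | h5
      · exact Or.inl h5
      · exact absurd h5 h4
  refine ⟨s, hs, x, hxB, hTv, A', hA', ?_, hsub⟩
  by_contra hsA
  refine P.ne_A306 h hcl hxv hxz hA' fun i hi => ?_
  rcases hsub hi with h3 | h3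
  · exact absurd (h3 ▸ hi) hsA
  · exact h3

end DP

end Vale.Agent.P032.Six
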