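import Vale.Agent.P032.S5.H306.Disc6s

/-!
# P032: the statement in the plane, all discs, no order bound, no silent colours
-/

open Set Filter Topology Metric

namespace Vale.Agent.P032.S5.H306

open Vale.Agent.P032.S5.H138 Vale.Agent.P032.Six Vale.Agent.P032.S5.H843

/-- the global form -/
theorem noSix_of_loc (H6 : NoSixALoc) (Hs : NoSilentLoc) : NoSix := by
  intro U T h hmin hU hn z h6 hcl
  have hD : ∀ w, dist w z ≤ 2 → (∃ a b c d, DPt T w a b c d) →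
      ∀ y, dist y w = 1 → (T y).ncard ≤ 3 := by
    intro w _ hDw y hy
    by_contra hc
    exact hU w y (by rw [dist_comm]; exact hy) (by omega) (Or.inr hDw)
  exact H6 U T h hmin z h6 hcl (fun w _ => hn w) hD (Hs U T h hmin z h6 hcl (fun w _ => hn w) hD)

/-- no order bound (843's `pair6V`) -/
theorem pair6W (H : NoFive) (H6 : NoSix) {U : Fin 6 → Set (EuclideanSpace ℝ (Fin 2))}
    (hd : Dense (⋃ i, U i))
    (hU : ∀ i, Maximal (fun W : Set (EuclideanSpace ℝ (Fin 2)) =>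
      IsOpen W ∧ ∀ x ∈ W, ∀ y ∈ W, dist x y ≠ 1) (U i)) :
    ∃ z z', dist z z' = 1 ∧ z ∈ XU U 3 ∧ z' ∈ XU U 3 ∧
      (z ∈ XU U 4 ∨ z ∈ closure {x | DV U x}) := by
  rcases exists_pairV_of (m := 6) (by norm_num) hU hd fun _ _ h hmin _ hu =>
    core6 H H6 h hmin hu with ⟨z, hz⟩ | h
  · exfalso
    have h1 := hz univ (by rw [Set.ncard_univ, Nat.card_eq_fintype_card, Fintype.card_fin])
    have h2 : (⋃ j, U j) \ ⋃ i ∈ (univ : Set (Fin 6)), U i = ∅ := by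
      rw [sdiff_eq_empty]
      exact fun x hx => by
        obtain ⟨j, hj⟩ := mem_iUnion.1 hx
        exact mem_iUnion₂.2 ⟨j, mem_univ j, hj⟩
    rw [h2, closure_empty] at h1
    exact h1
  · exact h

/-- the statement in the plane, with the disc form, from the theorems on clean points with five and
six colours -/
theorem result6c (H : NoFiveLoc) (H5 : NoFive) (H6 : NoSixALoc) (Hs : NoSilentLoc) :
    (∀ V : Fin 6 → Set (EuclideanSpace ℝ (Fin 2)), (∀ i, IsOpen (V i)) →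
      (∀ i, ∀ x ∈ V i, ∀ y ∈ V i, dist x y ≠ 1) → Dense (⋃ i, V i) →
      ∃ U : Fin 6 → Set (EuclideanSpace ℝ (Fin 2)), (∀ i, V i ⊆ U i) ∧ Dense (⋃ i, U i) ∧
        ∀ i, Maximal (fun W : Set (EuclideanSpace ℝ (Fin 2)) =>
          IsOpen W ∧ ∀ x ∈ W, ∀ y ∈ W, dist x y ≠ 1) (U i)) ∧
    (∀ U : Fin 6 → Set (EuclideanSpace ℝ (Fin 2)), Dense (⋃ i, U i) →
      (∀ i, Maximal (fun W : Set (EuclideanSpace ℝ (Fin 2)) =>
        IsOpen W ∧ ∀ x ∈ W, ∀ y ∈ W, dist x y ≠ 1) (U i)) →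
      (∀ o : EuclideanSpace ℝ (Fin 2), ∃ z, dist z o ≤ 24 ∧
        (((∀ s : Set (Fin 6), s.ncard ≤ 4 → z ∈ closure ((⋃ j, U j) \ ⋃ i ∈ s, U i)) ∧
          ∃ z', dist z z' = 1 ∧
            ∀ s : Set (Fin 6), s.ncard ≤ 3 → z' ∈ closure ((⋃ j, U j) \ ⋃ i ∈ s, U i)) ∨
        ((∀ s : Set (Fin 6), s.ncard ≤ 3 → z ∈ closure ((⋃ j, U j) \ ⋃ i ∈ s, U i)) ∧
          z ∈ closure {x | ∃ a b c d : Fin 6, [a, b, c, d].Nodup ∧
            x ∉ closure ((⋃ j, U j) \ ⋃ i ∈ ({a, b, c, d} : Set (Fin 6)), U i) ∧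
            (∀ s ⊂ ({a, b, c, d} : Set (Fin 6)), x ∈ closure ((⋃ j, U j) \ ⋃ i ∈ s, U i)) ∧
            ∃ p q, dist p x = 1 ∧ dist q x = 1 ∧ ∃ r > 0,
              (∀ y, dist y x = 1 → dist y p < r → y ∈ closure (U a) ∧ y ∈ closure (U b) ∧
                y ∉ closure ((⋃ j, U j) \ ⋃ i ∈ ({a, b} : Set (Fin 6)), U i)) ∧
              ∀ y, dist y x = 1 → dist y q < r → y ∈ closure (U c) ∧ y ∈ closure (U d) ∧
                y ∉ closure ((⋃ j, U j) \ ⋃ i ∈ ({c, d} : Set (Fin 6)), U i)}))) ∧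
      ∃ z z', dist z z' = 1 ∧
        (∀ s : Set (Fin 6), s.ncard ≤ 3 → z ∈ closure ((⋃ j, U j) \ ⋃ i ∈ s, U i)) ∧
        (∀ s : Set (Fin 6), s.ncard ≤ 3 → z' ∈ closure ((⋃ j, U j) \ ⋃ i ∈ s, U i)) ∧
        ((∀ s : Set (Fin 6), s.ncard ≤ 4 → z ∈ closure ((⋃ j, U j) \ ⋃ i ∈ s, U i)) ∨
          z ∈ closure {x | ∃ a b c d : Fin 6, [a, b, c, d].Nodup ∧
            x ∉ closure ((⋃ j, U j) \ ⋃ i ∈ ({a, b, c, d} : Set (Fin 6)), U i) ∧
            (∀ s ⊂ ({a, b, c, d} : Set (Fin 6)), x ∈ closure ((⋃ j, U j) \ ⋃ i ∈ s, U i)) ∧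
            ∃ p q, dist p x = 1 ∧ dist q x = 1 ∧ ∃ r > 0,
              (∀ y, dist y x = 1 → dist y p < r → y ∈ closure (U a) ∧ y ∈ closure (U b) ∧
                y ∉ closure ((⋃ j, U j) \ ⋃ i ∈ ({a, b} : Set (Fin 6)), U i)) ∧
              ∀ y, dist y x = 1 → dist y q < r → y ∈ closure (U c) ∧ y ∈ closure (U d) ∧
                y ∉ closure ((⋃ j, U j) \ ⋃ i ∈ ({c, d} : Set (Fin 6)), U i)})) := by
  refine ⟨fun V hV hfree hd => ?_, fun U hd hU => ⟨fun o => ?_, ?_⟩⟩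
  · choose U hVU hU using fun i =>
      Vale.Agent.P032.S5.H926.exists_maximal_ge (hV i) (hfree i)
    exact ⟨U, hVU, hd.mono (iUnion_mono hVU), hU⟩
  · obtain ⟨z, hz, h⟩ := disc6s H H6 Hs hd hU o
    refine ⟨z, hz, h.imp (fun h => ⟨h.1, ?_⟩) id⟩
    obtain ⟨z', h1, h2⟩ := h.2
    exact ⟨z', h2, h1⟩
  · exact pair6W H5 (noSix_of_loc H6 Hs) hd hU

end Vale.Agent.P032.S5.H306
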