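import Vale.Agent.P032.S5.H306.Defs

/-!
# P032: sides of unit circles

`rho` : the rhombus identity.  `out_of`, `inn_of` : a path from `z` on which the colour `m` is
present forces `m` to be near `v` only outside / inside the unit disc about `z`.
-/

open Set Filter Topology Metric

noncomputable section

namespace Vale.Agent.P032.Six

variable {U : Fin 6 → Set ℂ} {T : ℂ → Set (Fin 6)}

theorem cis_re306 (t : ℝ) : (cis t).re = Real.cos t := by
  simp [cis, Complex.exp_re]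

theorem cis_im306 (t : ℝ) : (cis t).im = Real.sin t := by
  simp [cis, Complex.exp_im]

/-- **the rhombus identity** -/
theorem rho (a b g : ℝ) : ‖cis a + cis b - cis g‖ ^ 2 - 1 =
    8 * Real.sin ((a - g) / 2) * Real.sin ((b - g) / 2) * Real.cos ((a - b) / 2) := by
  have e1 : ‖cis a + cis b - cis g‖ ^ 2 =
      3 + 2 * Real.cos (a - b) - 2 * Real.cos (a - g) - 2 * Real.cos (b - g) := by
    rw [Complex.sq_norm, Complex.normSq_apply]
    simp only [Complex.add_re, Complex.sub_re, Complex.add_im, Complex.sub_im, cis_re306, cis_im306]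
    rw [Real.cos_sub, Real.cos_sub, Real.cos_sub]
    nlinarith [Real.sin_sq_add_cos_sq a, Real.sin_sq_add_cos_sq b, Real.sin_sq_add_cos_sq g]
  obtain ⟨p, hp⟩ : ∃ p, p = (a - g) / 2 := ⟨_, rfl⟩
  obtain ⟨q, hq⟩ : ∃ q, q = (b - g) / 2 := ⟨_, rfl⟩
  have h1 : a - g = 2 * p := by rw [hp]; ring
  have h2 : b - g = 2 * q := by rw [hq]; ring
  have h3 : a - b = 2 * (p - q) := by rw [hp, hq]; ring
  have h4 : (a - b) / 2 = p - q := by rw [hp, hq]; ring
  rw [e1, h4, ← hp, ← hq, h1, h2, h3, Real.cos_two_mul, Real.cos_two_mul, Real.cos_two_mul,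
    Real.cos_sub]
  have h5 := Real.sin_sq_add_cos_sq p
  have h6 := Real.sin_sq_add_cos_sq q
  have h7 : Real.cos p ^ 2 = 1 - Real.sin p ^ 2 := by linarith
  have h8 : Real.cos q ^ 2 = 1 - Real.sin q ^ 2 := by linarith
  have h9 : (Real.cos p * Real.cos q + Real.sin p * Real.sin q) ^ 2 =
    Real.cos p ^ 2 * Real.cos q ^ 2 + 2 * Real.cos p * Real.cos q * Real.sin p * Real.sin q +
      Real.sin p ^ 2 * Real.sin q ^ 2 := by ring
  rw [h9, h7, h8]
  ring

theorem lt_of_rho {a b g : ℝ} (h : 0 < Real.sin ((a - g) / 2) * Real.sin ((b - g) / 2) *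
    Real.cos ((a - b) / 2)) : 1 < ‖cis a + cis b - cis g‖ := by
  have h1 := rho a b g
  have h2 : 1 < ‖cis a + cis b - cis g‖ ^ 2 := by nlinarith
  nlinarith [norm_nonneg (cis a + cis b - cis g)]

theorem rho_lt {a b g : ℝ} (h : Real.sin ((a - g) / 2) * Real.sin ((b - g) / 2) *
    Real.cos ((a - b) / 2) < 0) : ‖cis a + cis b - cis g‖ < 1 := by
  have h1 := rho a b g
  have h2 : ‖cis a + cis b - cis g‖ ^ 2 < 1 := by nlinarith
  nlinarith [norm_nonneg (cis a + cis b - cis g)]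

/-- both differences of the same sign -/
theorem far_rho {a b g : ℝ} (h : (0 < a - g ∧ 0 < b - g) ∨ (a - g < 0 ∧ b - g < 0))
    (h1 : |a - g| < Real.pi) (h2 : |b - g| < Real.pi) (h3 : |a - b| < Real.pi) :
    1 < ‖cis a + cis b - cis g‖ := by
  have hc : 0 < Real.cos ((a - b) / 2) := by
    rw [abs_lt] at h3
    exact Real.cos_pos_of_mem_Ioo ⟨by linarith [h3.1], by linarith [h3.2]⟩
  rw [abs_lt] at h1 h2
  refine lt_of_rho (mul_pos ?_ hc)
  rcases h with ⟨h4, h5⟩ | ⟨h4, h5⟩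
  · exact mul_pos (Real.sin_pos_of_pos_of_lt_pi (by linarith) (by linarith [Real.pi_pos]))
      (Real.sin_pos_of_pos_of_lt_pi (by linarith) (by linarith [Real.pi_pos]))
  · exact mul_pos_of_neg_of_neg (Real.sin_neg_of_neg_of_neg_pi_lt (by linarith)
      (by linarith [Real.pi_pos])) (Real.sin_neg_of_neg_of_neg_pi_lt (by linarith)
      (by linarith [Real.pi_pos]))

/-- differences of different signs -/
theorem near_rho {a b g : ℝ} (h : (0 < a - g ∧ b - g < 0) ∨ (a - g < 0 ∧ 0 < b - g))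
    (h1 : |a - g| < Real.pi) (h2 : |b - g| < Real.pi) (h3 : |a - b| < Real.pi) :
    ‖cis a + cis b - cis g‖ < 1 := by
  have hc : 0 < Real.cos ((a - b) / 2) := by
    rw [abs_lt] at h3
    exact Real.cos_pos_of_mem_Ioo ⟨by linarith [h3.1], by linarith [h3.2]⟩
  rw [abs_lt] at h1 h2
  refine rho_lt (mul_neg_of_neg_of_pos ?_ hc)
  rcases h with ⟨h4, h5⟩ | ⟨h4, h5⟩
  · exact mul_neg_of_pos_of_neg (Real.sin_pos_of_pos_of_lt_pi (by linarith)
      (by linarith [Real.pi_pos])) (Real.sin_neg_of_neg_of_neg_pi_lt (by linarith)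
      (by linarith [Real.pi_pos]))
  · exact mul_neg_of_neg_of_pos (Real.sin_neg_of_neg_of_neg_pi_lt (by linarith)
      (by linarith [Real.pi_pos])) (Real.sin_pos_of_pos_of_lt_pi (by linarith)
      (by linarith [Real.pi_pos]))

/-- a path from `z` with the colour `m` and end outside `D(v)` -/
theorem out_of (h : Irr U T) {γ : ℝ → ℂ} (hγ : Continuous γ) {m : Fin 6} {v z : ℂ}
    (h0 : γ 0 = z) (hm : ∀ t ∈ Ioc (0 : ℝ) 1, m ∈ T (γ t)) (h1 : 1 < dist (γ 1) v) :
    Out T m v z := by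
  have e1 : ∀ᶠ p in 𝓝 v, 1 < dist (γ 1) p :=
    (continuous_const.dist continuous_id).continuousAt.eventually (Ioi_mem_nhds h1)
  unfold Out
  filter_upwards [e1.eventually_nhds] with p hp hmp
  by_contra hcon
  push Not at hcon
  have e2 : ∀ᶠ p' in 𝓝 p, dist p' z < 1 :=
    (continuous_id.dist continuous_const).continuousAt.eventually (Iio_mem_nhds hcon)
  obtain ⟨p', hT, hp1, hp2⟩ := ((h.pure p m hmp).and_eventually (hp.and e2)).exists
  have hcont : ContinuousOn (fun t => dist (γ t) p') (Icc 0 1) :=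
    (hγ.dist continuous_const).continuousOn
  obtain ⟨t, ht, ht1⟩ := intermediate_value_Icc zero_le_one hcont
    (show (1 : ℝ) ∈ Icc (dist (γ 0) p') (dist (γ 1) p') from
      ⟨by rw [h0, dist_comm]; exact hp2.le, hp1.le⟩)
  simp only at ht1
  have ht0 : t ≠ 0 := by
    rintro rfl
    rw [h0, dist_comm] at ht1
    linarith
  exact h.mx.notMem' (h.mem_of_single hT.le) (by rw [dist_comm]; exact ht1)
    (h.sub _ (hm t ⟨lt_of_le_of_ne ht.1 (Ne.symm ht0), ht.2⟩))

/-- a path from `z` with the colour `m` and end inside `D(v)` -/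
theorem inn_of (h : Irr U T) {γ : ℝ → ℂ} (hγ : Continuous γ) {m : Fin 6} {v z : ℂ}
    (h0 : γ 0 = z) (hm : ∀ t ∈ Ioc (0 : ℝ) 1, m ∈ T (γ t)) (h1 : dist (γ 1) v < 1) :
    Inn T m v z := by
  have e1 : ∀ᶠ p in 𝓝 v, dist (γ 1) p < 1 :=
    (continuous_const.dist continuous_id).continuousAt.eventually (Iio_mem_nhds h1)
  unfold Inn
  filter_upwards [e1.eventually_nhds] with p hp hmp
  by_contra hcon
  push Not at hcon
  have e2 : ∀ᶠ p' in 𝓝 p, 1 < dist p' z :=
    (continuous_id.dist continuous_const).continuousAt.eventually (Ioi_mem_nhds hcon)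
  obtain ⟨p', hT, hp1, hp2⟩ := ((h.pure p m hmp).and_eventually (hp.and e2)).exists
  have hcont : ContinuousOn (fun t => dist (γ t) p') (Icc 0 1) :=
    (hγ.dist continuous_const).continuousOn
  obtain ⟨t, ht, ht1⟩ := intermediate_value_Icc' zero_le_one hcont
    (show (1 : ℝ) ∈ Icc (dist (γ 1) p') (dist (γ 0) p') from
      ⟨hp1.le, by rw [h0, dist_comm]; exact hp2.le⟩)
  simp only at ht1
  have ht0 : t ≠ 0 := by
    rintro rfl
    rw [h0, dist_comm] at ht1
    linarith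
  exact h.mx.notMem' (h.mem_of_single hT.le) (by rw [dist_comm]; exact ht1)
    (h.sub _ (hm t ⟨lt_of_le_of_ne ht.1 (Ne.symm ht0), ht.2⟩))

/-- pure points off a circle -/
theorem pure_off (h : Irr U T) {m : Fin 6} {v : ℂ} (hm : m ∈ T v) (z : ℂ) :
    ∃ᶠ p in 𝓝 v, T p = {m} ∧ dist p z ≠ 1 := by
  intro hcon
  obtain ⟨w, hw, hw2⟩ := ((h.pure v m hm).and_eventually hcon.eventually_nhds).exists
  have h1 : ∀ᶠ p in 𝓝 w, dist p z = 1 := by
    filter_upwards [hw2, h.nhd w] with p h2 h3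
    by_contra h4
    refine h2 ⟨?_, h4⟩
    rw [hw] at h3
    obtain ⟨j, hj⟩ := h.ne p
    refine Subset.antisymm h3 ?_
    rintro i rfl
    have : j = i := h3 hj
    exact this ▸ hj
  have h2 : w ∈ interior (sphere z 1) := by
    rw [mem_interior_iff_mem_nhds]
    exact h1
  rw [interior_sphere z one_ne_zero] at h2
  exact h2

/-- a colour which is near `v` neither outside nor inside is not in `T v` -/
theorem notMem_of_both (h : Irr U T) {m : Fin 6} {v z : ℂ} (h1 : Out T m v z)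
    (h2 : Inn T m v z) : m ∉ T v := by
  intro hm
  obtain ⟨p, ⟨hp1, hp2⟩, hp3, hp4⟩ := ((pure_off h hm z).and_eventually (h1.and h2)).exists
  have h3 : m ∈ T p := by rw [hp1]; rfl
  exact hp2 (le_antisymm (hp4 h3) (hp3 h3))

/-- one colour on a path -/
theorem const_path (h : Irr U T) {γ : ℝ → ℂ} (hγ : Continuous γ) {S : Set (Fin 6)}
    (hT : ∀ t ∈ Ioc (0 : ℝ) 1, ∃ m ∈ S, T (γ t) = {m}) :
    ∃ m ∈ S, ∀ t ∈ Ioc (0 : ℝ) 1, T (γ t) = {m} := by
  obtain ⟨m, hm, hm1⟩ := hT 1 ⟨one_pos, le_rfl⟩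
  refine ⟨m, hm, ?_⟩
  by_contra hcon
  push Not at hcon
  obtain ⟨t0, ht0, ht1⟩ := hcon
  have hA : IsClosed {t : ℝ | m ∈ T (γ t)} := (h.closed m).preimage hγ
  have hB : IsClosed (⋃ i ∈ {i : Fin 6 | i ≠ m}, {t : ℝ | i ∈ T (γ t)}) :=
    (Set.toFinite _).isClosed_biUnion fun i _ => (h.closed i).preimage hγ
  obtain ⟨m0, hm0, hm0'⟩ := hT t0 ht0
  have hne : m0 ≠ m := by
    rintro rfl
    exact ht1 hm0'
  obtain ⟨t, ht, htA, htB⟩ := isPreconnected_closed_iff.1 (isPreconnected_Ioc (a := (0 : ℝ))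
    (b := 1)) _ _ hA hB (fun t _ => by
      obtain ⟨b, hb⟩ := h.ne (γ t)
      by_cases hbm : b = m
      · exact Or.inl (hbm ▸ hb)
      · exact Or.inr (mem_iUnion₂.2 ⟨b, hbm, hb⟩)) ⟨1, ⟨one_pos, le_rfl⟩, by
        show m ∈ T (γ 1)
        rw [hm1]; rfl⟩ ⟨t0, ht0, mem_iUnion₂.2 ⟨m0, hne, by
        show m0 ∈ T (γ t0)
        rw [hm0']; rfl⟩⟩
  obtain ⟨i, hi, hit⟩ := mem_iUnion₂.1 htB
  obtain ⟨m', -, hm'⟩ := hT t ht
  have h1 : m ∈ T (γ t) := htA
  have h2 : i ∈ T (γ t) := hit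
  rw [hm'] at h1 h2
  exact hi (h2.trans h1.symm)

end Vale.Agent.P032.Six
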